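import Vale.Agent.P233.Bd3.B1

/-!
Weak and strong limits along a filter (in particular along an ultrafilter) of classes of
functions in `L²`.  (helper415, row UL)
-/

set_option linter.all false

open MeasureTheory Filter Topology
open scoped ENNReal NNReal InnerProductSpace

namespace Vale.Agent.P233

/-! ### (0) real ultralimits -/

section real

variable {ι : Type*} {U : Ultrafilter ι} {a b : ι → ℝ}

/-- `a` is eventually bounded along `U`. -/
def UBdd (U : Ultrafilter ι) (a : ι → ℝ) : Prop := ∃ K : ℝ, ∀ᶠ i in (U : Filter ι), |a i| ≤ K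

/-- The limit of a bounded family along an ultrafilter. -/
noncomputable def ulim (U : Ultrafilter ι) (a : ι → ℝ) : ℝ := limUnder (U : Filter ι) a

theorem UBdd.exists_tendsto (h : UBdd U a) : ∃ x, Tendsto a U (𝓝 x) := by
  obtain ⟨K, hK⟩ := h
  have hc : IsCompact (Set.Icc (-K) K) := isCompact_Icc
  have h1 : (U.map a : Filter ℝ) ≤ 𝓟 (Set.Icc (-K) K) := by
    rw [le_principal_iff]
    show ∀ᶠ i in (U : Filter ι), a i ∈ Set.Icc (-K) K
    filter_upwards [hK] with i hi
    exact abs_le.1 hi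
  obtain ⟨x, -, hx⟩ := hc.ultrafilter_le_nhds (U.map a) h1
  exact ⟨x, hx⟩

theorem UBdd.tendsto (h : UBdd U a) : Tendsto a U (𝓝 (ulim U a)) := by
  obtain ⟨x, hx⟩ := h.exists_tendsto
  have : ulim U a = x := hx.limUnder_eq
  rw [this]
  exact hx

theorem ulim_eq {x : ℝ} (h : Tendsto a U (𝓝 x)) : ulim U a = x := h.limUnder_eq

theorem UBdd.of_tendsto {x : ℝ} (h : Tendsto a U (𝓝 x)) : UBdd U a := by
  refine ⟨|x| + 1, ?_⟩
  have h1 : ∀ᶠ y in 𝓝 x, |y| ≤ |x| + 1 := by
    have : ∀ᶠ y in 𝓝 x, |y| < |x| + 1 :=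
      (continuous_abs.tendsto x).eventually (gt_mem_nhds (by linarith))
    filter_upwards [this] with y hy using hy.le
  exact h.eventually h1

theorem UBdd.const (c : ℝ) : UBdd U (fun _ => c) := ⟨|c|, Eventually.of_forall fun _ => le_rfl⟩

theorem UBdd.add (ha : UBdd U a) (hb : UBdd U b) : UBdd U (fun i => a i + b i) := by
  obtain ⟨K, hK⟩ := ha
  obtain ⟨L, hL⟩ := hb
  exact ⟨K + L, by filter_upwards [hK, hL] with i h1 h2 using (abs_add_le _ _).trans (add_le_add h1 h2)⟩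

theorem UBdd.neg (ha : UBdd U a) : UBdd U (fun i => -a i) := by
  obtain ⟨K, hK⟩ := ha
  exact ⟨K, by filter_upwards [hK] with i h1 using by rwa [abs_neg]⟩

theorem UBdd.sub (ha : UBdd U a) (hb : UBdd U b) : UBdd U (fun i => a i - b i) := by
  simpa [sub_eq_add_neg] using ha.add hb.neg

theorem UBdd.mul (ha : UBdd U a) (hb : UBdd U b) : UBdd U (fun i => a i * b i) := by
  obtain ⟨K, hK⟩ := ha
  obtain ⟨L, hL⟩ := hb
  refine ⟨K * L, ?_⟩
  filter_upwards [hK, hL] with i h1 h2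
  rw [abs_mul]
  exact mul_le_mul h1 h2 (abs_nonneg _) ((abs_nonneg _).trans h1)

theorem UBdd.const_mul (c : ℝ) (ha : UBdd U a) : UBdd U (fun i => c * a i) :=
  (UBdd.const c).mul ha

theorem ulim_const (c : ℝ) : ulim U (fun _ => c) = c := ulim_eq tendsto_const_nhds

theorem ulim_add (ha : UBdd U a) (hb : UBdd U b) :
    ulim U (fun i => a i + b i) = ulim U a + ulim U b := ulim_eq (ha.tendsto.add hb.tendsto)

theorem ulim_sub (ha : UBdd U a) (hb : UBdd U b) :
    ulim U (fun i => a i - b i) = ulim U a - ulim U b := ulim_eq (ha.tendsto.sub hb.tendsto)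

theorem ulim_neg (ha : UBdd U a) : ulim U (fun i => -a i) = -ulim U a := ulim_eq ha.tendsto.neg

theorem ulim_mul (ha : UBdd U a) (hb : UBdd U b) :
    ulim U (fun i => a i * b i) = ulim U a * ulim U b := ulim_eq (ha.tendsto.mul hb.tendsto)

theorem ulim_const_mul (c : ℝ) (ha : UBdd U a) : ulim U (fun i => c * a i) = c * ulim U a :=
  ulim_eq (ha.tendsto.const_mul c)

theorem ulim_congr (h : ∀ᶠ i in (U : Filter ι), a i = b i) : ulim U a = ulim U b := by
  unfold ulim limUnder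
  rw [Filter.map_congr h]

theorem ulim_mono (ha : UBdd U a) (hb : UBdd U b) (h : ∀ᶠ i in (U : Filter ι), a i ≤ b i) :
    ulim U a ≤ ulim U b := le_of_tendsto_of_tendsto ha.tendsto hb.tendsto h

theorem ulim_le (ha : UBdd U a) {c : ℝ} (h : ∀ᶠ i in (U : Filter ι), a i ≤ c) : ulim U a ≤ c :=
  le_of_tendsto ha.tendsto h

theorem le_ulim (ha : UBdd U a) {c : ℝ} (h : ∀ᶠ i in (U : Filter ι), c ≤ a i) : c ≤ ulim U a :=
  ge_of_tendsto ha.tendsto h

theorem abs_ulim_le {c : ℝ} (h : ∀ᶠ i in (U : Filter ι), |a i| ≤ c) : |ulim U a| ≤ c :=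
  le_of_tendsto (UBdd.tendsto ⟨c, h⟩).abs h

/-- a convergent sequence has the same limit along every ultrafilter `U ≤ atTop` -/
theorem ulim_eq_of_tendsto {l : Filter ι} (hU : (U : Filter ι) ≤ l) {x : ℝ} (h : Tendsto a l (𝓝 x)) :
    ulim U a = x := ulim_eq (h.mono_left hU)

theorem ulim_comp {φ : ℝ → ℝ} (hφ : Continuous φ) (ha : UBdd U a) :
    ulim U (fun i => φ (a i)) = φ (ulim U a) := ulim_eq ((hφ.tendsto _).comp ha.tendsto)

end real

/-! ### (1) weak convergence -/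

variable {M : Type*} [MeasurableSpace M] {m : Measure M} {ι : Type*}

section pos

variable {f g h : M →ₘ[m] ℝ}

/-- the positive part of a class -/
noncomputable def ppart (f : M →ₘ[m] ℝ) : M →ₘ[m] ℝ :=
  AEEqFun.comp (fun t : ℝ => max t 0) (continuous_id.max continuous_const) f

theorem ppart_ae (f : M →ₘ[m] ℝ) : ∀ᵐ x ∂m, ppart f x = max (f x) 0 := by
  filter_upwards [AEEqFun.coeFn_comp (fun t : ℝ => max t 0) (continuous_id.max continuous_const) f]
    with x hx
  rw [ppart, hx]; rfl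

theorem ppart_nonneg (f : M →ₘ[m] ℝ) : 0 ≤ ppart f := by
  rw [nonneg_iff_ae]
  filter_upwards [ppart_ae f] with x hx
  rw [hx]; exact le_max_right _ _

/-- `f` and `g` in `L²`, `f ≤ h`: then `(g - h)_+` is in `L²`. -/
theorem ppart_sub_mem {p : ℝ≥0∞} (hf : MemLp f p m) (hg : MemLp g p m) (hfh : f ≤ h) :
    MemLp (ppart (g - h)) p m := by
  have h1 : MemLp (g - f : M →ₘ[m] ℝ) p m := mem_sub hg hf
  refine mem_of_le h1 ?_
  filter_upwards [ppart_ae (g - h), sub_ae g h, sub_ae g f, le_iff_ae.1 hfh] with x a1 a2 a3 a4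
  rw [a1, a2, a3, abs_of_nonneg (le_max_right _ _)]
  rcases le_total (g x - h x) 0 with h0 | h0
  · rw [max_eq_right h0]; exact abs_nonneg _
  · rw [max_eq_left h0]
    refine le_trans ?_ (le_abs_self _)
    linarith

end pos

/-- Weak convergence in `L²` along a filter (with bounded norms). -/
structure WConv (l : Filter ι) (f : ι → (M →ₘ[m] ℝ)) (F : M →ₘ[m] ℝ) : Prop where
  bdd : ∃ K : ℝ, ∀ᶠ i in l, MemLp (f i) 2 m ∧ I ((f i) ^ 2) ≤ K
  mem : MemLp F 2 m
  lim : ∀ g : M →ₘ[m] ℝ, MemLp g 2 m → Tendsto (fun i => I (g * f i)) l (𝓝 (I (g * F)))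

/-- Strong convergence in `L²` along a filter; only the differences have to be in `L²`. -/
structure SConv (l : Filter ι) (f : ι → (M →ₘ[m] ℝ)) (F : M →ₘ[m] ℝ) : Prop where
  mem : ∀ᶠ i in l, MemLp (f i - F) 2 m
  lim : Tendsto (fun i => I ((f i - F) ^ 2)) l (𝓝 0)

/-- The norms are bounded along `l`. -/
def BddL2 (l : Filter ι) (f : ι → (M →ₘ[m] ℝ)) : Prop :=
  ∃ K : ℝ, ∀ᶠ i in l, MemLp (f i) 2 m ∧ I ((f i) ^ 2) ≤ K

variable {l : Filter ι} {f g h : ι → (M →ₘ[m] ℝ)} {F G H : M →ₘ[m] ℝ}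

theorem BddL2.nonneg_bound (hf : BddL2 l f) :
    ∃ K : ℝ, 0 ≤ K ∧ ∀ᶠ i in l, MemLp (f i) 2 m ∧ I ((f i) ^ 2) ≤ K := by
  obtain ⟨K, hK⟩ := hf
  refine ⟨max K 0, le_max_right _ _, ?_⟩
  filter_upwards [hK] with i hi using ⟨hi.1, hi.2.trans (le_max_left _ _)⟩

theorem BddL2.mem (hf : BddL2 l f) : ∀ᶠ i in l, MemLp (f i) 2 m := by
  obtain ⟨K, hK⟩ := hf
  filter_upwards [hK] with i hi using hi.1

theorem BddL2.add (hf : BddL2 l f) (hg : BddL2 l g) : BddL2 l (fun i => f i + g i) := by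
  obtain ⟨K, hK⟩ := hf
  obtain ⟨L, hL⟩ := hg
  refine ⟨2 * K + 2 * L, ?_⟩
  filter_upwards [hK, hL] with i h1 h2
  refine ⟨mem_add h1.1 h2.1, (I_sq_add_le h1.1 h2.1).trans ?_⟩
  linarith [h1.2, h2.2]

theorem BddL2.smul (c : ℝ) (hf : BddL2 l f) : BddL2 l (fun i => c • f i) := by
  obtain ⟨K, hK⟩ := hf
  refine ⟨c ^ 2 * K, ?_⟩
  filter_upwards [hK] with i h1
  refine ⟨mem_smul _ h1.1, ?_⟩
  have : (c • f i) ^ 2 = c ^ 2 • (f i) ^ 2 := by rw [smul_pow]
  rw [this, I_smul]
  exact mul_le_mul_of_nonneg_left h1.2 (sq_nonneg _)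

theorem BddL2.neg (hf : BddL2 l f) : BddL2 l (fun i => -f i) := by
  simpa using hf.smul (-1)

theorem BddL2.sub (hf : BddL2 l f) (hg : BddL2 l g) : BddL2 l (fun i => f i - g i) := by
  simpa [sub_eq_add_neg] using hf.add hg.neg

theorem BddL2.congr (hf : BddL2 l f) (h : ∀ᶠ i in l, f i = g i) : BddL2 l g := by
  obtain ⟨K, hK⟩ := hf
  refine ⟨K, ?_⟩
  filter_upwards [hK, h] with i h1 h2
  rw [← h2]; exact h1

theorem BddL2.const (hF : MemLp F 2 m) : BddL2 l (fun _ => F) :=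
  ⟨I (F ^ 2), Eventually.of_forall fun _ => ⟨hF, le_rfl⟩⟩

/-- bound of the square of a product with a bounded class -/
theorem I_sq_mul_le {b F : M →ₘ[m] ℝ} {K : ℝ} (hK : ∀ᵐ x ∂m, |b x| ≤ K) (hF : MemLp F 2 m) :
    MemLp (b * F) 2 m ∧ I ((b * F) ^ 2) ≤ K ^ 2 * I (F ^ 2) := by
  have hb : MemLp b ∞ m := mem_top_iff.2 ⟨K, hK⟩
  have h1 : MemLp (b * F) 2 m := mem_mul_top hb hF
  refine ⟨h1, ?_⟩
  rw [← I_smul]
  refine I_mono (mem_sq h1) (mem_smul _ (mem_sq hF)) ?_
  rw [le_iff_ae]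
  filter_upwards [sq_ae (b * F), mul_ae b F, smul_ae (F ^ 2) (K ^ 2), sq_ae F, hK]
    with x a1 a2 a3 a4 a5
  rw [a1, a2, a3, a4, mul_pow]
  refine mul_le_mul_of_nonneg_right ?_ (sq_nonneg _)
  rw [← sq_abs (b x)]
  exact pow_le_pow_left₀ (abs_nonneg _) a5 2

theorem BddL2.mul_bdd (hf : BddL2 l f) {K : ℝ} (hg : ∀ᶠ i in l, ∀ᵐ x ∂m, |g i x| ≤ K) :
    BddL2 l (fun i => g i * f i) := by
  obtain ⟨L, hL0, hL⟩ := hf.nonneg_bound
  refine ⟨K ^ 2 * L, ?_⟩
  filter_upwards [hL, hg] with i h1 h2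
  obtain ⟨h3, h4⟩ := I_sq_mul_le h2 h1.1
  exact ⟨h3, h4.trans (mul_le_mul_of_nonneg_left h1.2 (sq_nonneg _))⟩

theorem BddL2.ubdd {U : Ultrafilter ι} (hf : BddL2 (U : Filter ι) f) (hG : MemLp G 2 m) :
    UBdd U (fun i => I (G * f i)) := by
  obtain ⟨K, hK⟩ := hf
  refine ⟨Real.sqrt (I (G ^ 2)) * Real.sqrt K, ?_⟩
  filter_upwards [hK] with i h1
  exact (I_abs_le hG h1.1).trans (mul_le_mul_of_nonneg_left (Real.sqrt_le_sqrt h1.2) (Real.sqrt_nonneg _))

namespace WConv

theorem bddL2 (hf : WConv l f F) : BddL2 l f := hf.bdd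

theorem lim' (hf : WConv l f F) (hG : MemLp G 2 m) :
    Tendsto (fun i => I (f i * G)) l (𝓝 (I (F * G))) := by
  simpa [mul_comm] using hf.lim G hG

theorem unique [l.NeBot] (hf : WConv l f F) (hg : WConv l f G) : F = G := by
  have h1 : MemLp (F - G : M →ₘ[m] ℝ) 2 m := mem_sub hf.mem hg.mem
  have h2 := tendsto_nhds_unique (hf.lim _ h1) (hg.lim _ h1)
  have h3 : I ((F - G) ^ 2) = 0 := by
    have e : (F - G) ^ 2 = (F - G) * F - (F - G) * G := by ring
    rw [e, I_sub (mem_mul_22 h1 hf.mem) (mem_mul_22 h1 hg.mem), h2, sub_self]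
  exact sub_eq_zero.1 (I_sq_eq_zero h1 h3)

theorem congr (hf : WConv l f F) (h : ∀ᶠ i in l, f i = g i) : WConv l g F where
  bdd := hf.bddL2.congr h
  mem := hf.mem
  lim G hG := (hf.lim G hG).congr' (by filter_upwards [h] with i hi using by rw [hi])

theorem mono {l' : Filter ι} (hf : WConv l f F) (h : l' ≤ l) : WConv l' f F where
  bdd := by
    obtain ⟨K, hK⟩ := hf.bdd
    exact ⟨K, h hK⟩
  mem := hf.mem
  lim G hG := (hf.lim G hG).mono_left h

theorem comp {κ : Type*} {l' : Filter κ} {u : κ → ι} (hf : WConv l f F) (h : Tendsto u l' l) :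
    WConv l' (fun j => f (u j)) F where
  bdd := by
    obtain ⟨K, hK⟩ := hf.bdd
    exact ⟨K, h.eventually hK⟩
  mem := hf.mem
  lim G hG := (hf.lim G hG).comp h

theorem const (hF : MemLp F 2 m) : WConv l (fun _ => F) F where
  bdd := BddL2.const hF
  mem := hF
  lim G hG := tendsto_const_nhds

theorem add (hf : WConv l f F) (hg : WConv l g G) : WConv l (fun i => f i + g i) (F + G) where
  bdd := hf.bddL2.add hg.bddL2
  mem := mem_add hf.mem hg.mem
  lim H hH := by
    have h1 := (hf.lim H hH).add (hg.lim H hH)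
    rw [mul_add, I_add (mem_mul_22 hH hf.mem) (mem_mul_22 hH hg.mem)]
    refine h1.congr' ?_
    filter_upwards [hf.bddL2.mem, hg.bddL2.mem] with i a1 a2
    rw [mul_add, I_add (mem_mul_22 hH a1) (mem_mul_22 hH a2)]

theorem smul (c : ℝ) (hf : WConv l f F) : WConv l (fun i => c • f i) (c • F) where
  bdd := hf.bddL2.smul c
  mem := mem_smul c hf.mem
  lim H hH := by
    have h1 := (hf.lim H hH).const_mul c
    rw [mul_smul_comm, I_smul]
    refine h1.congr fun i => ?_
    rw [mul_smul_comm, I_smul]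

theorem neg (hf : WConv l f F) : WConv l (fun i => -f i) (-F) := by
  simpa using hf.smul (-1)

theorem sub (hf : WConv l f F) (hg : WConv l g G) : WConv l (fun i => f i - g i) (F - G) := by
  simpa [sub_eq_add_neg] using hf.add hg.neg

theorem sum {κ : Type*} (s : Finset κ) {f : κ → ι → (M →ₘ[m] ℝ)} {F : κ → (M →ₘ[m] ℝ)}
    (h : ∀ j ∈ s, WConv l (f j) (F j)) : WConv l (fun i => ∑ j ∈ s, f j i) (∑ j ∈ s, F j) := by
  classical
  induction s using Finset.induction_on with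
  | empty => simpa using WConv.const (l := l) (m := m) mem_zero
  | insert a s ha ih =>
    have h1 := (h a (Finset.mem_insert_self a s)).add (ih fun j hj => h j (Finset.mem_insert_of_mem hj))
    simpa [Finset.sum_insert ha] using h1

/-- product with a fixed bounded class -/
theorem mul_top (hf : WConv l f F) (hG : MemLp G ∞ m) : WConv l (fun i => G * f i) (G * F) where
  bdd := by
    obtain ⟨K, hK⟩ := mem_top_iff.1 hG
    exact hf.bddL2.mul_bdd (Eventually.of_forall fun _ => hK)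
  mem := mem_mul_top hG hf.mem
  lim H hH := by
    have h1 := hf.lim (H * G) (mem_top_mul hH hG)
    simpa [mul_assoc] using h1

/-- it is enough to test on a dense set -/
theorem of_dense (hb : BddL2 l f) (hF : MemLp F 2 m) {D : Set (M →ₘ[m] ℝ)}
    (hD : ∀ G : M →ₘ[m] ℝ, MemLp G 2 m → ∀ ε > 0, ∃ H ∈ D, MemLp H 2 m ∧ I ((G - H) ^ 2) < ε)
    (h : ∀ G ∈ D, MemLp G 2 m → Tendsto (fun i => I (G * f i)) l (𝓝 (I (G * F)))) : WConv l f F where
  bdd := hb
  mem := hF
  lim G hG := by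
    obtain ⟨K, hK0, hK⟩ := hb.nonneg_bound
    set L : ℝ := Real.sqrt K + Real.sqrt (I (F ^ 2)) + 1 with hL
    have hL0 : 0 < L := by positivity
    rw [Metric.tendsto_nhds]
    intro ε hε
    obtain ⟨H, hHD, hH, hH2⟩ := hD G hG ((ε / (2 * L)) ^ 2) (by positivity)
    have hd : MemLp (G - H : M →ₘ[m] ℝ) 2 m := mem_sub hG hH
    have hs : Real.sqrt (I ((G - H) ^ 2)) < ε / (2 * L) := by
      rw [Real.sqrt_lt' (by positivity)]; exact hH2
    filter_upwards [hK, Metric.tendsto_nhds.1 (h H hHD hH) (ε / 2) (by positivity)] with i h1 h2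
    rw [Real.dist_eq] at h2 ⊢
    have e : I (G * f i) - I (G * F)
        = I ((G - H) * f i) - I ((G - H) * F) + (I (H * f i) - I (H * F)) := by
      rw [sub_mul, sub_mul, I_sub (mem_mul_22 hG h1.1) (mem_mul_22 hH h1.1),
        I_sub (mem_mul_22 hG hF) (mem_mul_22 hH hF)]
      ring
    rw [e]
    have b1 : |I ((G - H) * f i)| ≤ ε / (2 * L) * Real.sqrt K :=
      (I_abs_le hd h1.1).trans (mul_le_mul hs.le (Real.sqrt_le_sqrt h1.2) (Real.sqrt_nonneg _)
        (by positivity))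
    have b2 : |I ((G - H) * F)| ≤ ε / (2 * L) * Real.sqrt (I (F ^ 2)) :=
      (I_abs_le hd hF).trans (mul_le_mul_of_nonneg_right hs.le (Real.sqrt_nonneg _))
    have b3 : ε / (2 * L) * Real.sqrt K + ε / (2 * L) * Real.sqrt (I (F ^ 2)) < ε / 2 := by
      have : ε / 2 = ε / (2 * L) * L := by field_simp
      rw [this, ← mul_add]
      refine mul_lt_mul_of_pos_left ?_ (by positivity)
      rw [hL]; linarith
    calc |I ((G - H) * f i) - I ((G - H) * F) + (I (H * f i) - I (H * F))|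
        ≤ |I ((G - H) * f i)| + |I ((G - H) * F)| + |I (H * f i) - I (H * F)| :=
          (abs_add_le _ _).trans (add_le_add (abs_sub _ _) le_rfl)
      _ < ε := by linarith

/-! ### (2) order and lower semicontinuity -/

/-- upper bounds by an arbitrary class pass to the limit -/
theorem le_of_le [l.NeBot] (hf : WConv l f F) (h : ∀ᶠ i in l, f i ≤ H) : F ≤ H := by
  obtain ⟨i0, hi0, hi1⟩ := (hf.bddL2.mem.and h).exists
  have hg : MemLp (ppart (F - H)) 2 m := ppart_sub_mem hi0 hf.mem hi1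
  have hlim : Tendsto (fun i => I (ppart (F - H) * (F - f i))) l (𝓝 0) := by
    have h1 := ((WConv.const (l := l) hf.mem).sub hf).lim _ hg
    simpa [I_zero] using h1
  have hge : ∀ᶠ i in l, I (ppart (F - H) ^ 2) ≤ I (ppart (F - H) * (F - f i)) := by
    filter_upwards [hf.bddL2.mem, h] with i a1 a2
    refine I_mono (mem_sq hg) (mem_mul_22 hg (mem_sub hf.mem a1)) ?_
    rw [le_iff_ae]
    filter_upwards [sq_ae (ppart (F - H)), mul_ae (ppart (F - H)) (F - f i), sub_ae F (f i),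
      ppart_ae (F - H), sub_ae F H, le_iff_ae.1 a2] with x b1 b2 b3 b4 b5 b6
    rw [b1, b2, b3, b4, b5]
    rcases le_total (F x - H x) 0 with h0 | h0
    · rw [max_eq_right h0]; simp
    · rw [max_eq_left h0, sq]
      exact mul_le_mul_of_nonneg_left (by linarith) h0
  have h0 : I (ppart (F - H) ^ 2) ≤ 0 := ge_of_tendsto hlim hge
  have h1 : ppart (F - H) = 0 := I_sq_eq_zero hg (le_antisymm h0 (I_sq_nonneg _))
  rw [le_iff_ae]
  filter_upwards [ppart_ae (F - H), sub_ae F H, eq_iff_ae.1 h1, zero_ae (M := M) (m := m)]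
    with x b1 b2 b3 b4
  rw [b1, b2, b4] at b3
  have : F x - H x ≤ 0 := b3 ▸ le_max_left _ _
  linarith

/-- lower bounds by an arbitrary class pass to the limit -/
theorem ge_of_ge [l.NeBot] (hf : WConv l f F) (h : ∀ᶠ i in l, H ≤ f i) : H ≤ F := by
  have h1 : -F ≤ -H := hf.neg.le_of_le (by filter_upwards [h] with i hi using neg_le_neg hi)
  exact neg_le_neg_iff.1 h1

theorem nonneg [l.NeBot] (hf : WConv l f F) (h : ∀ᶠ i in l, 0 ≤ f i) : 0 ≤ F := hf.ge_of_ge h

theorem le_of_le' [l.NeBot] (hf : WConv l f F) (hg : WConv l g G) (h : ∀ᶠ i in l, f i ≤ g i) :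
    F ≤ G := by
  have h1 := (hg.sub hf).nonneg (by filter_upwards [h] with i hi using sub_nonneg.2 hi)
  exact sub_nonneg.1 h1

theorem le_const [l.NeBot] (hf : WConv l f F) {K : ℝ} (h : ∀ᶠ i in l, ∀ᵐ x ∂m, f i x ≤ K) :
    ∀ᵐ x ∂m, F x ≤ K := by
  have h1 : F ≤ K • (1 : M →ₘ[m] ℝ) := by
    refine hf.le_of_le ?_
    filter_upwards [h] with i hi
    rw [le_iff_ae]
    filter_upwards [hi, smul_ae (1 : M →ₘ[m] ℝ) K, one_ae (M := M) (m := m)] with x a1 a2 a3
    rw [a2, a3]; linarith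
  filter_upwards [le_iff_ae.1 h1, smul_ae (1 : M →ₘ[m] ℝ) K, one_ae (M := M) (m := m)]
    with x a1 a2 a3
  rw [a2, a3] at a1; linarith

theorem ge_const [l.NeBot] (hf : WConv l f F) {K : ℝ} (h : ∀ᶠ i in l, ∀ᵐ x ∂m, K ≤ f i x) :
    ∀ᵐ x ∂m, K ≤ F x := by
  have h1 := hf.neg.le_const (K := -K) (by
    filter_upwards [h] with i hi
    filter_upwards [hi, neg_ae (f i)] with x a1 a2
    rw [a2]; linarith)
  filter_upwards [h1, neg_ae F] with x a1 a2
  rw [a2] at a1; linarith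

theorem abs_le_const [l.NeBot] (hf : WConv l f F) {K : ℝ} (h : ∀ᶠ i in l, ∀ᵐ x ∂m, |f i x| ≤ K) :
    ∀ᵐ x ∂m, |F x| ≤ K := by
  have h1 := hf.le_const (K := K) (by
    filter_upwards [h] with i hi
    filter_upwards [hi] with x a1 using (abs_le.1 a1).2)
  have h2 := hf.ge_const (K := -K) (by
    filter_upwards [h] with i hi
    filter_upwards [hi] with x a1 using (abs_le.1 a1).1)
  filter_upwards [h1, h2] with x a1 a2 using abs_le.2 ⟨a2, a1⟩

/-- products with a bounded class that vanish along the sequence -/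
theorem mul_eq_zero [l.NeBot] (hf : WConv l f F) (hG : MemLp G ∞ m) (h : ∀ᶠ i in l, G * f i = 0) :
    G * F = 0 :=
  (hf.mul_top hG).unique ((WConv.const mem_zero).congr (by filter_upwards [h] with i hi using hi.symm))

/-- the class of the indicator of a set -/
noncomputable def _root_.Vale.Agent.P233.indc (m : Measure M) {S : Set M} (hS : MeasurableSet S) :
    M →ₘ[m] ℝ :=
  AEEqFun.mk (S.indicator fun _ => (1 : ℝ)) (aestronglyMeasurable_const.indicator hS)

theorem _root_.Vale.Agent.P233.indc_ae {S : Set M} (hS : MeasurableSet S) :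
    ∀ᵐ x ∂m, indc m hS x = S.indicator (fun _ => (1 : ℝ)) x :=
  AEEqFun.coeFn_mk _ _

theorem _root_.Vale.Agent.P233.indc_top {S : Set M} (hS : MeasurableSet S) :
    MemLp (indc m hS) ∞ m := by
  rw [mem_top_iff]
  refine ⟨1, ?_⟩
  filter_upwards [indc_ae (m := m) hS] with x hx
  rw [hx]
  by_cases h : x ∈ S
  · rw [Set.indicator_of_mem h]; simp
  · rw [Set.indicator_of_notMem h]; simp

/-- weak limits of functions that vanish on a set -/
theorem eq_zero_on [l.NeBot] (hf : WConv l f F) {S : Set M} (hS : MeasurableSet S)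
    (h : ∀ᶠ i in l, ∀ᵐ x ∂m, x ∈ S → f i x = 0) : ∀ᵐ x ∂m, x ∈ S → F x = 0 := by
  have h1 : indc m hS * F = 0 := by
    refine hf.mul_eq_zero (indc_top hS) ?_
    filter_upwards [h] with i hi
    rw [eq_iff_ae]
    filter_upwards [hi, mul_ae (indc m hS) (f i), indc_ae (m := m) hS, zero_ae (M := M) (m := m)]
      with x a1 a2 a3 a4
    rw [a2, a3, a4]
    by_cases hx : x ∈ S
    · rw [a1 hx, mul_zero]
    · rw [Set.indicator_of_notMem hx, zero_mul]
  filter_upwards [eq_iff_ae.1 h1, mul_ae (indc m hS) F, indc_ae (m := m) hS,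
    zero_ae (M := M) (m := m)] with x a1 a2 a3 a4 hx
  rw [a2, a3, a4, Set.indicator_of_mem hx, one_mul] at a1
  exact a1

/-- the support inequality: `A + D (f i - F) ≤ B i` with `D ∈ L²` -/
theorem lsc_support (hf : WConv l f F) {A D : M →ₘ[m] ℝ} {B : ι → (M →ₘ[m] ℝ)}
    (hA : MemLp A 1 m) (hD : MemLp D 2 m) (hB : ∀ᶠ i in l, MemLp (B i) 1 m)
    (h : ∀ᶠ i in l, A + D * (f i - F) ≤ B i) {ε : ℝ} (hε : 0 < ε) :
    ∀ᶠ i in l, I A - ε < I (B i) := by
  have h1 : Tendsto (fun i => I (D * (f i - F))) l (𝓝 0) := by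
    have := (hf.sub (WConv.const (l := l) hf.mem)).lim D hD
    simpa [I_zero] using this
  filter_upwards [h1.eventually (lt_mem_nhds (by linarith : -ε < (0 : ℝ))), hB, h, hf.bddL2.mem]
    with i a1 a2 a3 a4
  have hDm : MemLp (D * (f i - F)) 1 m := mem_mul_22 hD (mem_sub a4 hf.mem)
  have := I_mono (mem_add hA hDm) a2 a3
  rw [I_add hA hDm] at this
  linarith

theorem I_le_of_support [l.NeBot] (hf : WConv l f F) {A D : M →ₘ[m] ℝ} {B : ι → (M →ₘ[m] ℝ)}
    (hA : MemLp A 1 m) (hD : MemLp D 2 m) (hB : ∀ᶠ i in l, MemLp (B i) 1 m)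
    (h : ∀ᶠ i in l, A + D * (f i - F) ≤ B i) {a : ℝ} (ha : ∃ᶠ i in l, I (B i) ≤ a) : I A ≤ a := by
  refine le_of_forall_pos_lt_add fun ε hε => ?_
  obtain ⟨i, h1, h2⟩ := (ha.and_eventually (hf.lsc_support hA hD hB h hε)).exists
  linarith

/-- weighted lower semicontinuity of the square -/
theorem lsc_weight (hf : WConv l f F) {w : M →ₘ[m] ℝ} (hw : MemLp w ∞ m) (hw0 : 0 ≤ w)
    {ε : ℝ} (hε : 0 < ε) : ∀ᶠ i in l, I (w * F ^ 2) - ε < I (w * f i ^ 2) := by
  refine hf.lsc_support (D := (2 : ℝ) • (w * F)) (mem_mul_top hw (mem_sq hf.mem))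
    (mem_smul _ (mem_mul_top hw hf.mem)) ?_ ?_ hε
  · filter_upwards [hf.bddL2.mem] with i hi using mem_mul_top hw (mem_sq hi)
  · refine Eventually.of_forall fun i => ?_
    have e : w * f i ^ 2 - (w * F ^ 2 + (2 : ℝ) • (w * F) * (f i - F)) = w * (f i - F) ^ 2 := by
      rw [smul_mul_assoc, two_smul]
      ring
    rw [← sub_nonneg, e]
    exact mul_nonneg hw0 (sq_nonneg' _)

theorem I_weight_le [l.NeBot] (hf : WConv l f F) {w : M →ₘ[m] ℝ} (hw : MemLp w ∞ m) (hw0 : 0 ≤ w)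
    {a : ℝ} (ha : ∃ᶠ i in l, I (w * f i ^ 2) ≤ a) : I (w * F ^ 2) ≤ a := by
  refine le_of_forall_pos_lt_add fun ε hε => ?_
  obtain ⟨i, h1, h2⟩ := (ha.and_eventually (hf.lsc_weight hw hw0 hε)).exists
  linarith

theorem I_sq_le [l.NeBot] (hf : WConv l f F) {a : ℝ} (ha : ∃ᶠ i in l, I (f i ^ 2) ≤ a) :
    I (F ^ 2) ≤ a := by
  have := hf.I_weight_le (w := 1) (a := a) mem_top_one zero_le_one (by simpa using ha)
  simpa using this

theorem I_sq_le_of_tendsto [l.NeBot] (hf : WConv l f F) {a : ℝ}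
    (ha : Tendsto (fun i => I (f i ^ 2)) l (𝓝 a)) : I (F ^ 2) ≤ a := by
  refine le_of_forall_pos_lt_add fun ε hε => ?_
  have h1 : ∃ᶠ i in l, I (f i ^ 2) ≤ a + ε / 2 :=
    (ha.eventually (ge_mem_nhds (by linarith : a < a + ε / 2))).frequently
  have := hf.I_sq_le h1
  linarith

theorem I_sq_le_ulim {U : Ultrafilter ι} {f : ι → (M →ₘ[m] ℝ)} (hf : WConv (U : Filter ι) f F) :
    I (F ^ 2) ≤ ulim U (fun i => I (f i ^ 2)) := by
  refine hf.I_sq_le_of_tendsto (UBdd.tendsto ?_)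
  obtain ⟨K, hK⟩ := hf.bdd
  refine ⟨K, ?_⟩
  filter_upwards [hK] with i hi
  rw [abs_of_nonneg (I_sq_nonneg _)]
  exact hi.2

end WConv

/-! ### existence of weak ultralimits -/

section exist

variable {U : Ultrafilter ι}

/-- bounded families converge weakly along ultrafilters -/
theorem BddL2.exists_wconv (hf : BddL2 (U : Filter ι) f) : ∃ F, WConv (U : Filter ι) f F := by
  obtain ⟨K, hK0, hK⟩ := hf.nonneg_bound
  have hub : ∀ G : Lp ℝ 2 m, UBdd U (fun i => I ((G : M →ₘ[m] ℝ) * f i)) := fun G =>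
    hf.ubdd (Lp.memLp G)
  let L : Lp ℝ 2 m →ₗ[ℝ] ℝ :=
    { toFun := fun G => ulim U (fun i => I ((G : M →ₘ[m] ℝ) * f i))
      map_add' := by
        intro G H
        rw [← ulim_add (hub G) (hub H)]
        refine ulim_congr ?_
        filter_upwards [hf.mem] with i hi
        rw [AddSubgroup.coe_add, add_mul, I_add (mem_mul_22 (Lp.memLp G) hi)
          (mem_mul_22 (Lp.memLp H) hi)]
      map_smul' := by
        intro c G
        rw [RingHom.id_apply, smul_eq_mul, ← ulim_const_mul c (hub G)]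
        refine ulim_congr (Eventually.of_forall fun i => ?_)
        have e : ((c • G : Lp ℝ 2 m) : M →ₘ[m] ℝ) = c • (G : M →ₘ[m] ℝ) := rfl
        show I (((c • G : Lp ℝ 2 m) : M →ₘ[m] ℝ) * f i) = c * I ((G : M →ₘ[m] ℝ) * f i)
        rw [e, smul_mul_assoc, I_smul] }
  have hL : ∀ G, ‖L G‖ ≤ Real.sqrt K * ‖G‖ := by
    intro G
    rw [Real.norm_eq_abs]
    refine abs_ulim_le ?_
    filter_upwards [hK] with i hi
    refine (I_abs_le (Lp.memLp G) hi.1).trans ?_
    have e : Real.sqrt (I ((G : M →ₘ[m] ℝ) ^ 2)) = ‖G‖ := by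
      rw [I_sq_eq_norm (Lp.memLp G), Real.sqrt_sq (norm_nonneg _)]
      congr 1
      exact Lp.toLp_coeFn G (Lp.memLp G)
    rw [e, mul_comm]
    exact mul_le_mul_of_nonneg_right (Real.sqrt_le_sqrt hi.2) (norm_nonneg _)
  set T : Lp ℝ 2 m →L[ℝ] ℝ := L.mkContinuous (Real.sqrt K) hL with hT
  obtain ⟨F, hF⟩ : ∃ F : Lp ℝ 2 m, ∀ G, ⟪F, G⟫_ℝ = T G :=
    ⟨(InnerProductSpace.toDual ℝ (Lp ℝ 2 m)).symm T, fun G =>
      InnerProductSpace.toDual_symm_apply⟩
  refine ⟨(F : M →ₘ[m] ℝ), ⟨K, hK⟩, Lp.memLp F, fun g hg => ?_⟩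
  have h1 := (hf.ubdd hg).tendsto
  have h2 : ulim U (fun i => I (g * f i)) = I (g * (F : M →ₘ[m] ℝ)) := by
    have e1 : T hg.toLp = ulim U (fun i => I (g * f i)) := by
      show ulim U (fun i => I (((hg.toLp g : Lp ℝ 2 m) : M →ₘ[m] ℝ) * f i)) = _
      have : ((hg.toLp g : Lp ℝ 2 m) : M →ₘ[m] ℝ) = g := by
        show AEEqFun.mk g hg.1 = g
        exact AEEqFun.mk_coeFn g
      rw [this]
    rw [← e1, ← hF, mul_comm, I_mul_eq_inner (Lp.memLp F) hg]
    congr 1
    exact (Lp.toLp_coeFn F (Lp.memLp F)).symm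
  rw [← h2]; exact h1

open Classical in
/-- The weak ultralimit of a bounded family. -/
noncomputable def wlim (U : Ultrafilter ι) (f : ι → (M →ₘ[m] ℝ)) : M →ₘ[m] ℝ :=
  if h : ∃ F, WConv (U : Filter ι) f F then h.choose else 0

theorem BddL2.wconv (hf : BddL2 (U : Filter ι) f) : WConv (U : Filter ι) f (wlim U f) := by
  have h := hf.exists_wconv
  rw [wlim, dif_pos h]
  exact h.choose_spec

theorem WConv.wlim_eq (hf : WConv (U : Filter ι) f F) : wlim U f = F :=
  (hf.bddL2.wconv).unique hf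

theorem wlim_add (hf : BddL2 (U : Filter ι) f) (hg : BddL2 (U : Filter ι) g) :
    wlim U (fun i => f i + g i) = wlim U f + wlim U g := (hf.wconv.add hg.wconv).wlim_eq

theorem wlim_smul (c : ℝ) (hf : BddL2 (U : Filter ι) f) :
    wlim U (fun i => c • f i) = c • wlim U f := (hf.wconv.smul c).wlim_eq

theorem wlim_sub (hf : BddL2 (U : Filter ι) f) (hg : BddL2 (U : Filter ι) g) :
    wlim U (fun i => f i - g i) = wlim U f - wlim U g := (hf.wconv.sub hg.wconv).wlim_eq

theorem wlim_neg (hf : BddL2 (U : Filter ι) f) : wlim U (fun i => -f i) = -wlim U f :=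
  hf.wconv.neg.wlim_eq

theorem wlim_const (hF : MemLp F 2 m) : wlim U (fun _ => F) = F := (WConv.const hF).wlim_eq

theorem wlim_congr (h : ∀ᶠ i in (U : Filter ι), f i = g i) : wlim U f = wlim U g := by
  by_cases hf : ∃ F, WConv (U : Filter ι) f F
  · obtain ⟨F, hF⟩ := hf
    rw [hF.wlim_eq, (hF.congr h).wlim_eq]
  · have hg : ¬ ∃ F, WConv (U : Filter ι) g F := by
      rintro ⟨F, hF⟩
      exact hf ⟨F, hF.congr (by filter_upwards [h] with i hi using hi.symm)⟩
    rw [wlim, wlim, dif_neg hf, dif_neg hg]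

theorem wlim_mul_top (hf : BddL2 (U : Filter ι) f) (hG : MemLp G ∞ m) :
    wlim U (fun i => G * f i) = G * wlim U f := (hf.wconv.mul_top hG).wlim_eq

theorem wlim_mono (hf : BddL2 (U : Filter ι) f) (hg : BddL2 (U : Filter ι) g)
    (h : ∀ᶠ i in (U : Filter ι), f i ≤ g i) : wlim U f ≤ wlim U g := hf.wconv.le_of_le' hg.wconv h

theorem wlim_nonneg (hf : BddL2 (U : Filter ι) f) (h : ∀ᶠ i in (U : Filter ι), 0 ≤ f i) :
    0 ≤ wlim U f := hf.wconv.nonneg h

/-- weak limit of the images under a symmetric bounded operator -/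
theorem WConv.map {l : Filter ι} (hf : WConv l f F) {T : (M →ₘ[m] ℝ) → (M →ₘ[m] ℝ)}
    (hT : ∀ G : M →ₘ[m] ℝ, MemLp G 2 m → MemLp (T G) 2 m)
    (hs : ∀ G H : M →ₘ[m] ℝ, MemLp G 2 m → MemLp H 2 m → I (T G * H) = I (G * T H))
    {K : ℝ} (hK : ∀ G : M →ₘ[m] ℝ, MemLp G 2 m → I (T G ^ 2) ≤ K * I (G ^ 2)) :
    WConv l (fun i => T (f i)) (T F) where
  bdd := by
    obtain ⟨L, hL0, hL⟩ := hf.bddL2.nonneg_bound
    refine ⟨|K| * L, ?_⟩
    filter_upwards [hL] with i hi
    refine ⟨hT _ hi.1, (hK _ hi.1).trans ?_⟩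
    exact (mul_le_mul_of_nonneg_right (le_abs_self K) (I_sq_nonneg _)).trans
      (mul_le_mul_of_nonneg_left hi.2 (abs_nonneg _))
  mem := hT _ hf.mem
  lim G hG := by
    have h1 := hf.lim (T G) (hT G hG)
    rw [hs G F hG hf.mem] at h1
    refine h1.congr' ?_
    filter_upwards [hf.bddL2.mem] with i hi
    rw [hs G (f i) hG hi]

/-- the version with an adjoint operator (possibly between different functions) -/
theorem WConv.map_adj {l : Filter ι} (hf : WConv l f F) {T S : (M →ₘ[m] ℝ) → (M →ₘ[m] ℝ)}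
    (hT : ∀ G : M →ₘ[m] ℝ, MemLp G 2 m → MemLp (T G) 2 m) (hS : ∀ G : M →ₘ[m] ℝ, MemLp G 2 m → MemLp (S G) 2 m)
    (hs : ∀ G H : M →ₘ[m] ℝ, MemLp G 2 m → MemLp H 2 m → I (S G * H) = I (G * T H))
    {K : ℝ} (hK : ∀ G : M →ₘ[m] ℝ, MemLp G 2 m → I (T G ^ 2) ≤ K * I (G ^ 2)) :
    WConv l (fun i => T (f i)) (T F) where
  bdd := by
    obtain ⟨L, hL0, hL⟩ := hf.bddL2.nonneg_bound
    refine ⟨|K| * L, ?_⟩
    filter_upwards [hL] with i hi
    refine ⟨hT _ hi.1, (hK _ hi.1).trans ?_⟩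
    exact (mul_le_mul_of_nonneg_right (le_abs_self K) (I_sq_nonneg _)).trans
      (mul_le_mul_of_nonneg_left hi.2 (abs_nonneg _))
  mem := hT _ hf.mem
  lim G hG := by
    have h1 := hf.lim (S G) (hS G hG)
    rw [hs G F hG hf.mem] at h1
    refine h1.congr' ?_
    filter_upwards [hf.bddL2.mem] with i hi
    rw [hs G (f i) hG hi]

end exist

/-! ### (3) strong convergence -/

/-- bounded approximation -/
theorem exists_bdd_approx (hF : MemLp F 2 m) {ε : ℝ} (hε : 0 < ε) :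
    ∃ (T : M →ₘ[m] ℝ) (L : ℝ), 0 ≤ L ∧ MemLp T 2 m ∧ (∀ᵐ x ∂m, |T x| ≤ L) ∧
      (∀ᵐ x ∂m, |T x| ≤ |F x|) ∧ MemLp (F - T) 2 m ∧ I ((F - T) ^ 2) < ε := by
  have hc : ∀ n : ℕ, Continuous (fun t : ℝ => max (-(n : ℝ)) (min (n : ℝ) t)) := fun n =>
    continuous_const.max (continuous_const.min continuous_id)
  set T : ℕ → (M →ₘ[m] ℝ) := fun n => AEEqFun.comp _ (hc n) F with hT
  have hTae : ∀ n, ∀ᵐ x ∂m, T n x = max (-(n : ℝ)) (min (n : ℝ) (F x)) := fun n => by
    filter_upwards [AEEqFun.coeFn_comp _ (hc n) F] with x hx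
    simp only [hT]; rw [hx]; rfl
  have habs : ∀ (n : ℕ) (t : ℝ), |max (-(n : ℝ)) (min (n : ℝ) t)| ≤ |t| := by
    intro n t
    have hn : (0 : ℝ) ≤ n := Nat.cast_nonneg n
    rw [abs_le]
    constructor
    · rcases le_total (min (n : ℝ) t) (-(n : ℝ)) with h1 | h1
      · rw [max_eq_left h1]
        rcases le_total (n : ℝ) t with h2 | h2
        · rw [min_eq_left h2] at h1
          have : (n : ℝ) = 0 := by linarith
          rw [this]; simp
        · rw [min_eq_right h2] at h1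
          have := neg_abs_le t
          linarith
      · rw [max_eq_right h1]
        refine le_min ?_ (neg_abs_le t)
        have := abs_nonneg t
        linarith
    · refine max_le ?_ ((min_le_right _ _).trans (le_abs_self t))
      have := abs_nonneg t
      linarith
  have habn : ∀ (n : ℕ) (t : ℝ), |max (-(n : ℝ)) (min (n : ℝ) t)| ≤ n := by
    intro n t
    have hn : (0 : ℝ) ≤ n := Nat.cast_nonneg n
    rw [abs_le]
    exact ⟨le_max_left _ _, max_le (by linarith) (min_le_left _ _)⟩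
  have hTm : ∀ n, MemLp (T n) 2 m := fun n => mem_of_le hF (by
    filter_upwards [hTae n] with x hx
    rw [hx]; exact habs n _)
  have hd : ∀ n, ∀ᵐ x ∂m, |F x - T n x| ≤ |F x| := fun n => by
    filter_upwards [hTae n] with x hx
    rw [hx]
    have hn : (0 : ℝ) ≤ n := Nat.cast_nonneg n
    rcases le_total (F x) (-(n : ℝ)) with h1 | h1
    · have h2 : min (n : ℝ) (F x) = F x := min_eq_right (by linarith)
      rw [h2, max_eq_left h1, abs_of_nonpos (by linarith : F x - -(n : ℝ) ≤ 0),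
        abs_of_nonpos (by linarith : F x ≤ 0)]
      linarith
    · rcases le_total (F x) n with h2 | h2
      · rw [min_eq_right h2, max_eq_right h1]
        simp
      · rw [min_eq_left h2, max_eq_right (by linarith : -(n : ℝ) ≤ n),
          abs_of_nonneg (by linarith : 0 ≤ F x - n), abs_of_nonneg (by linarith : 0 ≤ F x)]
        linarith
  have hlim : Tendsto (fun n => I ((F - T n) ^ 2)) atTop (𝓝 (I (0 : M →ₘ[m] ℝ))) := by
    refine I_tendsto_of_dominated (G := fun x => F x ^ 2) hF.integrable_sq ?_ ?_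
    · intro n
      filter_upwards [sq_ae (F - T n), sub_ae F (T n), hd n] with x a1 a2 a3
      rw [a1, a2, abs_of_nonneg (sq_nonneg _)]
      exact sq_le_sq.2 a3
    · have hall : ∀ᵐ x ∂m, ∀ n : ℕ, ((F - T n) ^ 2 : M →ₘ[m] ℝ) x
          = (F x - max (-(n : ℝ)) (min (n : ℝ) (F x))) ^ 2 := by
        rw [ae_all_iff]
        intro n
        filter_upwards [sq_ae (F - T n), sub_ae F (T n), hTae n] with x a1 a2 a3
        rw [a1, a2, a3]
      filter_upwards [hall, zero_ae (M := M) (m := m)] with x hx h0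
      rw [h0]
      refine tendsto_const_nhds.congr' ?_
      obtain ⟨N, hN⟩ := exists_nat_ge |F x|
      filter_upwards [eventually_ge_atTop N] with n hn
      have hn' : |F x| ≤ n := hN.trans (by exact_mod_cast hn)
      rw [hx n, min_eq_right ((le_abs_self _).trans hn'),
        max_eq_right (by linarith [neg_abs_le (F x)])]
      simp
  rw [I_zero] at hlim
  obtain ⟨n, hn⟩ := (hlim.eventually (gt_mem_nhds hε)).exists
  refine ⟨T n, n, Nat.cast_nonneg n, hTm n, ?_, ?_, mem_sub hF (hTm n), hn⟩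
  · filter_upwards [hTae n] with x hx
    rw [hx]; exact habn n _
  · filter_upwards [hTae n] with x hx
    rw [hx]; exact habs n _

namespace SConv

theorem congr (hf : SConv l f F) (h : ∀ᶠ i in l, f i = g i) : SConv l g F where
  mem := by filter_upwards [hf.mem, h] with i h1 h2 using by rwa [← h2]
  lim := hf.lim.congr' (by filter_upwards [h] with i hi using by rw [hi])

theorem mono {l' : Filter ι} (hf : SConv l f F) (h : l' ≤ l) : SConv l' f F where
  mem := h hf.mem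
  lim := hf.lim.mono_left h

theorem comp {κ : Type*} {l' : Filter κ} {u : κ → ι} (hf : SConv l f F) (h : Tendsto u l' l) :
    SConv l' (fun j => f (u j)) F where
  mem := h.eventually hf.mem
  lim := hf.lim.comp h

theorem const (F : M →ₘ[m] ℝ) : SConv l (fun _ => F) F where
  mem := Eventually.of_forall fun _ => by rw [sub_self]; exact mem_zero
  lim := by
    simp only [sub_self]
    have : ((0 : M →ₘ[m] ℝ) ^ 2) = 0 := by ring
    rw [this, I_zero]
    exact tendsto_const_nhds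

theorem add (hf : SConv l f F) (hg : SConv l g G) : SConv l (fun i => f i + g i) (F + G) where
  mem := by
    filter_upwards [hf.mem, hg.mem] with i h1 h2
    have := mem_add h1 h2
    rwa [show f i - F + (g i - G) = f i + g i - (F + G) by abel] at this
  lim := by
    have h0 := (hf.lim.const_mul 2).add (hg.lim.const_mul 2)
    rw [mul_zero, add_zero] at h0
    refine squeeze_zero' (Eventually.of_forall fun i => I_sq_nonneg _) ?_ h0
    filter_upwards [hf.mem, hg.mem] with i h1 h2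
    have := I_sq_add_le h1 h2
    rwa [show f i - F + (g i - G) = f i + g i - (F + G) by abel] at this

theorem smul (c : ℝ) (hf : SConv l f F) : SConv l (fun i => c • f i) (c • F) where
  mem := by
    filter_upwards [hf.mem] with i h1
    have := mem_smul c h1
    rwa [smul_sub] at this
  lim := by
    have h0 := hf.lim.const_mul (c ^ 2)
    rw [mul_zero] at h0
    refine h0.congr fun i => ?_
    rw [← smul_sub, smul_pow, I_smul]

theorem neg (hf : SConv l f F) : SConv l (fun i => -f i) (-F) := by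
  simpa using hf.smul (-1)

theorem sub (hf : SConv l f F) (hg : SConv l g G) : SConv l (fun i => f i - g i) (F - G) := by
  simpa [sub_eq_add_neg] using hf.add hg.neg

theorem mem' (hf : SConv l f F) (hF : MemLp F 2 m) : ∀ᶠ i in l, MemLp (f i) 2 m := by
  filter_upwards [hf.mem] with i h1
  have := mem_add h1 hF
  rwa [sub_add_cancel] at this

theorem bddL2 (hf : SConv l f F) (hF : MemLp F 2 m) : BddL2 l f := by
  refine ⟨2 * 1 + 2 * I (F ^ 2), ?_⟩
  filter_upwards [hf.mem, hf.lim.eventually (ge_mem_nhds zero_lt_one)] with i h1 h2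
  have h3 := I_sq_add_le h1 hF
  have h4 := mem_add h1 hF
  rw [sub_add_cancel] at h3 h4
  exact ⟨h4, by linarith⟩

theorem sqrt_lim (hf : SConv l f F) : Tendsto (fun i => Real.sqrt (I ((f i - F) ^ 2))) l (𝓝 0) := by
  have := (Real.continuous_sqrt.tendsto 0).comp hf.lim
  simpa [Function.comp_def] using this

/-- strong convergence implies weak convergence -/
theorem wconv (hf : SConv l f F) (hF : MemLp F 2 m) : WConv l f F where
  bdd := hf.bddL2 hF
  mem := hF
  lim G hG := by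
    rw [tendsto_iff_dist_tendsto_zero]
    have h0 := hf.sqrt_lim.const_mul (Real.sqrt (I (G ^ 2)))
    rw [mul_zero] at h0
    refine squeeze_zero' (Eventually.of_forall fun i => dist_nonneg) ?_ h0
    filter_upwards [hf.mem, hf.mem' hF] with i h1 h2
    rw [Real.dist_eq, ← I_sub (mem_mul_22 hG h2) (mem_mul_22 hG hF), ← mul_sub]
    exact I_abs_le hG h1

theorem wconv_sub (hf : SConv l f F) : WConv l (fun i => f i - F) 0 := by
  have := (hf.sub (SConv.const F)).wconv (by rw [sub_self]; exact mem_zero)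
  simpa using this

theorem unique [l.NeBot] (hf : SConv l f F) (hg : SConv l f G) : F = G := by
  have h1 : WConv l (fun _ : ι => G - F) 0 := by
    have h2 : WConv l (fun i => f i - F - (f i - G)) (0 - 0) := hf.wconv_sub.sub hg.wconv_sub
    rw [sub_zero] at h2
    exact h2.congr (Eventually.of_forall fun i => by abel)
  obtain ⟨i, hi⟩ := h1.bddL2.mem.exists
  exact (sub_eq_zero.1 (((WConv.const hi).unique h1))).symm

theorem le_of_le [l.NeBot] (hf : SConv l f F) (h : ∀ᶠ i in l, f i ≤ H) : F ≤ H := by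
  have h1 : (0 : M →ₘ[m] ℝ) ≤ H - F := hf.wconv_sub.le_of_le (by
    filter_upwards [h] with i hi using sub_le_sub_right hi F)
  exact sub_nonneg.1 h1

theorem ge_of_ge [l.NeBot] (hf : SConv l f F) (h : ∀ᶠ i in l, H ≤ f i) : H ≤ F := by
  have h1 : -F ≤ -H := hf.neg.le_of_le (by filter_upwards [h] with i hi using neg_le_neg hi)
  exact neg_le_neg_iff.1 h1

theorem abs_le_const [l.NeBot] (hf : SConv l f F) {K : ℝ} (h : ∀ᶠ i in l, ∀ᵐ x ∂m, |f i x| ≤ K) :
    ∀ᵐ x ∂m, |F x| ≤ K := by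
  have h1 : F ≤ K • (1 : M →ₘ[m] ℝ) := by
    refine hf.le_of_le ?_
    filter_upwards [h] with i hi
    rw [le_iff_ae]
    filter_upwards [hi, smul_ae (1 : M →ₘ[m] ℝ) K, one_ae (M := M) (m := m)] with x a1 a2 a3
    rw [a2, a3]; linarith [(abs_le.1 a1).2]
  have h2 : (-K) • (1 : M →ₘ[m] ℝ) ≤ F := by
    refine hf.ge_of_ge ?_
    filter_upwards [h] with i hi
    rw [le_iff_ae]
    filter_upwards [hi, smul_ae (1 : M →ₘ[m] ℝ) (-K), one_ae (M := M) (m := m)] with x a1 a2 a3
    rw [a2, a3]; linarith [(abs_le.1 a1).1]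
  filter_upwards [le_iff_ae.1 h1, le_iff_ae.1 h2, smul_ae (1 : M →ₘ[m] ℝ) K,
    smul_ae (1 : M →ₘ[m] ℝ) (-K), one_ae (M := M) (m := m)] with x a1 a2 a3 a4 a5
  rw [a3, a5] at a1
  rw [a4, a5] at a2
  exact abs_le.2 ⟨by linarith, by linarith⟩

/-- norms converge -/
theorem tendsto_I_sq (hf : SConv l f F) (hF : MemLp F 2 m) :
    Tendsto (fun i => I (f i ^ 2)) l (𝓝 (I (F ^ 2))) := by
  have h1 := (hf.wconv hF).lim F hF
  have h2 := hf.lim.add (h1.const_mul 2)
  have h3 := h2.sub (tendsto_const_nhds (x := I (F ^ 2)))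
  have e : 0 + 2 * I (F * F) - I (F ^ 2) = I (F ^ 2) := by rw [← sq]; ring
  rw [e] at h3
  refine h3.congr' ?_
  filter_upwards [hf.mem, hf.mem' hF] with i a1 a2
  have e2 : f i ^ 2 = (f i - F) ^ 2 + (2 : ℝ) • (F * f i) - F ^ 2 := by
    rw [two_smul]; ring
  rw [e2, I_sub (mem_add (mem_sq a1) (mem_smul _ (mem_mul_22 hF a2))) (mem_sq hF),
    I_add (mem_sq a1) (mem_smul _ (mem_mul_22 hF a2)), I_smul]

/-- weak times strong -/
theorem tendsto_I_mul (hg : SConv l g G) (hG : MemLp G 2 m) (hf : WConv l f F) :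
    Tendsto (fun i => I (f i * g i)) l (𝓝 (I (F * G))) := by
  obtain ⟨K, hK0, hK⟩ := hf.bddL2.nonneg_bound
  have h1 := hf.lim' hG
  have h2 : Tendsto (fun i => I (f i * (g i - G))) l (𝓝 0) := by
    rw [tendsto_zero_iff_abs_tendsto_zero]
    have h0 := hg.sqrt_lim.const_mul (Real.sqrt K)
    rw [mul_zero] at h0
    refine squeeze_zero' (Eventually.of_forall fun i => abs_nonneg _) ?_ h0
    filter_upwards [hK, hg.mem] with i a1 a2
    exact (I_abs_le a1.1 a2).trans
      (mul_le_mul_of_nonneg_right (Real.sqrt_le_sqrt a1.2) (Real.sqrt_nonneg _))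
  have h3 := h1.add h2
  rw [add_zero] at h3
  refine h3.congr' ?_
  filter_upwards [hK, hg.mem] with i a1 a2
  rw [← I_add (mem_mul_22 a1.1 hG) (mem_mul_22 a1.1 a2), ← mul_add]
  congr 2; abel

/-- product of a bounded strongly convergent family with a strongly convergent family -/
theorem mul (hg : SConv l g G) {K : ℝ} (hK : ∀ᶠ i in l, ∀ᵐ x ∂m, |g i x| ≤ K)
    (hf : SConv l f F) (hF : MemLp F 2 m) : SConv l (fun i => g i * f i) (G * F) := by
  rcases l.eq_or_neBot with hl | hl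
  · subst hl
    exact ⟨Filter.eventually_bot, tendsto_bot⟩
  have hGK := hg.abs_le_const hK
  have hGt : MemLp G ∞ m := mem_top_iff.2 ⟨K, hGK⟩
  obtain ⟨i0, hi0⟩ := hK.exists
  have hdec : ∀ i, g i * f i - G * F = g i * (f i - F) + (g i - G) * F := fun i => by ring
  -- the second factor
  have h2m : ∀ᶠ i in l, MemLp ((g i - G) * F) 2 m := by
    filter_upwards [hK] with i a1
    have : MemLp (g i - G : M →ₘ[m] ℝ) ∞ m := mem_sub (mem_top_iff.2 ⟨K, a1⟩) hGt
    exact mem_mul_top this hF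
  have h2 : Tendsto (fun i => I (((g i - G) * F) ^ 2)) l (𝓝 0) := by
    rw [Metric.tendsto_nhds]
    intro ε hε
    set c : ℝ := (2 * |K| + 1) ^ 2 with hc
    have hc0 : 0 < c := by positivity
    obtain ⟨T, L, hL0, hT, hTL, -, hFT, hFT2⟩ := exists_bdd_approx hF (ε := ε / (4 * c))
      (by positivity)
    have hev : ∀ᶠ i in l, I ((g i - G) ^ 2) < ε / (4 * (L ^ 2 + 1)) :=
      hg.lim.eventually (gt_mem_nhds (by positivity))
    filter_upwards [hK, hev, hg.mem] with i a1 a2 a3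
    have hgG : ∀ᵐ x ∂m, |(g i - G : M →ₘ[m] ℝ) x| ≤ 2 * |K| + 1 := by
      filter_upwards [a1, hGK, sub_ae (g i) G] with x b1 b2 b3
      rw [b3]
      have := abs_sub (g i x) (G x)
      have := le_abs_self K
      linarith
    obtain ⟨c1, c2⟩ := I_sq_mul_le hgG hFT
    obtain ⟨d1, d2⟩ := I_sq_mul_le hTL a3
    rw [mul_comm T] at d1 d2
    have e : (g i - G) * F = (g i - G) * (F - T) + (g i - G) * T := by ring
    have h3 := I_sq_add_le c1 d1
    rw [← e] at h3
    rw [Real.dist_eq, sub_zero, abs_of_nonneg (I_sq_nonneg _)]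
    have e1 : 2 * I (((g i - G) * (F - T)) ^ 2) < ε / 2 := by
      have : c * I ((F - T) ^ 2) < c * (ε / (4 * c)) := mul_lt_mul_of_pos_left hFT2 hc0
      have e4 : c * (ε / (4 * c)) = ε / 4 := by field_simp
      rw [e4] at this
      rw [← hc] at c2
      linarith
    have e2 : 2 * I (((g i - G) * T) ^ 2) ≤ ε / 2 := by
      have h4 : L ^ 2 * I ((g i - G) ^ 2) ≤ (L ^ 2 + 1) * (ε / (4 * (L ^ 2 + 1))) :=
        mul_le_mul (by linarith) a2.le (I_sq_nonneg _) (by positivity)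
      have e4 : (L ^ 2 + 1) * (ε / (4 * (L ^ 2 + 1))) = ε / 4 := by field_simp
      rw [e4] at h4
      linarith
    linarith
  have h1m : ∀ᶠ i in l, MemLp (g i * (f i - F)) 2 m ∧
      I ((g i * (f i - F)) ^ 2) ≤ K ^ 2 * I ((f i - F) ^ 2) := by
    filter_upwards [hK, hf.mem] with i a1 a2 using I_sq_mul_le a1 a2
  refine ⟨?_, ?_⟩
  · filter_upwards [h1m, h2m] with i a1 a2
    rw [hdec i]; exact mem_add a1.1 a2
  · have h0 := ((hf.lim.const_mul (K ^ 2)).const_mul 2).add (h2.const_mul 2)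
    simp only [mul_zero, add_zero] at h0
    refine squeeze_zero' (Eventually.of_forall fun i => I_sq_nonneg _) ?_ h0
    filter_upwards [h1m, h2m] with i a1 a2
    rw [hdec i]
    refine (I_sq_add_le a1.1 a2).trans ?_
    have := a1.2
    linarith

/-- a bounded strongly convergent family times a weakly convergent family -/
theorem mul_wconv [l.NeBot] (hg : SConv l g G) {K : ℝ} (hK : ∀ᶠ i in l, ∀ᵐ x ∂m, |g i x| ≤ K)
    (hf : WConv l f F) : WConv l (fun i => g i * f i) (G * F) := by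
  have hGK := hg.abs_le_const hK
  have hGt : MemLp G ∞ m := mem_top_iff.2 ⟨K, hGK⟩
  refine ⟨hf.bddL2.mul_bdd hK, mem_mul_top hGt hf.mem, fun H hH => ?_⟩
  have h1 : SConv l (fun i => g i * H) (G * H) := hg.mul hK (SConv.const H) hH
  have h2 := h1.tendsto_I_mul (mem_mul_top hGt hH) hf
  have e : F * (G * H) = H * (G * F) := by ring
  rw [e] at h2
  refine h2.congr fun i => ?_
  congr 1; ring

end SConv

/-- weak convergence and convergence of the norms give strong convergence -/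
theorem WConv.sconv (hf : WConv l f F) (h : Tendsto (fun i => I (f i ^ 2)) l (𝓝 (I (F ^ 2)))) :
    SConv l f F where
  mem := by filter_upwards [hf.bddL2.mem] with i hi using mem_sub hi hf.mem
  lim := by
    have h1 := (h.sub ((hf.lim F hf.mem).const_mul 2)).add (tendsto_const_nhds (x := I (F ^ 2)))
    have e : I (F ^ 2) - 2 * I (F * F) + I (F ^ 2) = 0 := by rw [← sq]; ring
    rw [e] at h1
    refine h1.congr' ?_
    filter_upwards [hf.bddL2.mem] with i a1
    have e2 : (f i - F) ^ 2 = f i ^ 2 - (2 : ℝ) • (F * f i) + F ^ 2 := by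
      rw [two_smul]; ring
    rw [e2, I_add (mem_sub (mem_sq a1) (mem_smul _ (mem_mul_22 hf.mem a1))) (mem_sq hf.mem),
      I_sub (mem_sq a1) (mem_smul _ (mem_mul_22 hf.mem a1)), I_smul]

/-- the version with `limsup ≤` -/
theorem WConv.sconv_of_le (hf : WConv l f F)
    (h : ∀ ε > 0, ∀ᶠ i in l, I (f i ^ 2) ≤ I (F ^ 2) + ε) : SConv l f F := by
  refine hf.sconv ?_
  rw [Metric.tendsto_nhds]
  intro ε hε
  have h1 := hf.lsc_weight (w := 1) mem_top_one zero_le_one hε
  filter_upwards [h (ε / 2) (by linarith), h1] with i a1 a2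
  rw [one_mul, one_mul] at a2
  rw [Real.dist_eq, abs_lt]
  constructor <;> linarith

end Vale.Agent.P233
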