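import Vale.Agent.P233.H415.ULim

/-!
Weak and strong limits along a filter in the Sobolev space `C.W` of a calculus.
(helper415, row UL)
-/

set_option linter.all false

open MeasureTheory Filter Topology
open scoped ENNReal NNReal InnerProductSpace

namespace Vale.Agent.P233

variable {M : Type*} [MeasurableSpace M] {m : Measure M} {ι : Type*} {C : Calc m}
  {l : Filter ι} {f g h : ι → (M →ₘ[m] ℝ)} {F G H : M →ₘ[m] ℝ}

/-- the energies are bounded along `l` -/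
def BddE (C : Calc m) (l : Filter ι) (f : ι → (M →ₘ[m] ℝ)) : Prop :=
  ∃ K : ℝ, ∀ᶠ i in l, f i ∈ C.W ∧ I (C.Γ (f i) (f i)) ≤ K

/-- strong convergence in `W`; only the differences have to be in `W` -/
structure SConvW (C : Calc m) (l : Filter ι) (f : ι → (M →ₘ[m] ℝ)) (F : M →ₘ[m] ℝ) : Prop where
  mem : ∀ᶠ i in l, f i - F ∈ C.W
  lim : Tendsto (fun i => C.nrm2 (f i - F)) l (𝓝 0)

theorem BddE.mem (hf : BddE C l f) : ∀ᶠ i in l, f i ∈ C.W := by
  obtain ⟨K, hK⟩ := hf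
  filter_upwards [hK] with i hi using hi.1

theorem BddE.mono {l' : Filter ι} (hf : BddE C l f) (h : l' ≤ l) : BddE C l' f := by
  obtain ⟨K, hK⟩ := hf
  exact ⟨K, h hK⟩

theorem BddE.congr (hf : BddE C l f) (h : ∀ᶠ i in l, f i = g i) : BddE C l g := by
  obtain ⟨K, hK⟩ := hf
  refine ⟨K, ?_⟩
  filter_upwards [hK, h] with i h1 h2
  rw [← h2]; exact h1

theorem BddE.nonneg_bound (hf : BddE C l f) :
    ∃ K : ℝ, 0 ≤ K ∧ ∀ᶠ i in l, f i ∈ C.W ∧ I (C.Γ (f i) (f i)) ≤ K := by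
  obtain ⟨K, hK⟩ := hf
  refine ⟨max K 0, le_max_right _ _, ?_⟩
  filter_upwards [hK] with i hi using ⟨hi.1, hi.2.trans (le_max_left _ _)⟩

namespace IsDir

variable (hC : IsDir C)
include hC

theorem bddE_of_nrm2 {K : ℝ} (h : ∀ᶠ i in l, f i ∈ C.W ∧ C.nrm2 (f i) ≤ K) : BddE C l f := by
  refine ⟨K, ?_⟩
  filter_upwards [h] with i hi
  exact ⟨hi.1, (hC.E_le_nrm2 (f i)).trans hi.2⟩

theorem bddL2_of_nrm2 {K : ℝ} (h : ∀ᶠ i in l, f i ∈ C.W ∧ C.nrm2 (f i) ≤ K) : BddL2 l f := by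
  refine ⟨K, ?_⟩
  filter_upwards [h] with i hi
  exact ⟨hC.memLp _ hi.1, (hC.I_sq_le_nrm2 hi.1).trans hi.2⟩

theorem bddE_add (hf : BddE C l f) (hg : BddE C l g) : BddE C l (fun i => f i + g i) := by
  obtain ⟨K, hK⟩ := hf
  obtain ⟨L, hL⟩ := hg
  refine ⟨2 * K + 2 * L, ?_⟩
  filter_upwards [hK, hL] with i h1 h2
  refine ⟨hC.add_mem _ h1.1 _ h2.1, (hC.E_add_le h1.1 h2.1).trans ?_⟩
  linarith [h1.2, h2.2]

theorem bddE_smul (c : ℝ) (hf : BddE C l f) : BddE C l (fun i => c • f i) := by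
  obtain ⟨K, hK⟩ := hf
  refine ⟨c ^ 2 * K, ?_⟩
  filter_upwards [hK] with i h1
  refine ⟨hC.smul_mem _ _ h1.1, ?_⟩
  rw [hC.E_smul c h1.1]
  exact mul_le_mul_of_nonneg_left h1.2 (sq_nonneg _)

theorem bddE_const (hF : F ∈ C.W) : BddE C l (fun _ => F) :=
  ⟨I (C.Γ F F), Eventually.of_forall fun _ => ⟨hF, le_rfl⟩⟩

theorem bddE_sub (hf : BddE C l f) (hg : BddE C l g) : BddE C l (fun i => f i - g i) := by
  have := hC.bddE_add hf (hC.bddE_smul (-1) hg)
  refine this.congr (Eventually.of_forall fun i => ?_)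
  rw [neg_one_smul, sub_eq_add_neg]

/-- `J` maps weakly convergent families to weakly convergent families -/
theorem wconv_J {lam : ℝ} (hl : 0 < lam) (hf : WConv l f F) :
    WConv l (fun i => C.J lam (f i)) (C.J lam F) :=
  hf.map (K := 1) (fun G hG => hC.J_mem2 hl hG) (fun G H hG hH => by
    rw [hC.J_symm hl hG hH]) (fun G hG => by
    rw [one_mul]; exact hC.J_sq_le hl hG)

/-- the weak limit of a family with bounded energies is in `W` -/
theorem wconv_mem_le [l.NeBot] (hf : WConv l f F) {K : ℝ}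
    (hW : ∀ᶠ i in l, f i ∈ C.W) (hK : ∃ᶠ i in l, I (C.Γ (f i) (f i)) ≤ K) :
    F ∈ C.W ∧ I (C.Γ F F) ≤ K := by
  have hF := hf.mem
  have key : ∀ n : ℕ, I (C.Γ (C.J ((n : ℝ) + 1)⁻¹ F) (C.J ((n : ℝ) + 1)⁻¹ F)) ≤ K := by
    intro n
    set lam : ℝ := ((n : ℝ) + 1)⁻¹ with hlam
    have hl : 0 < lam := by positivity
    have hJW := hC.J_mem hl hF
    have hL := hC.J_isLap hl hF
    set k : M →ₘ[m] ℝ := lam⁻¹ • (C.J lam F - F) with hk
    have h1 := (hC.wconv_J hl hf).lim k hL.2.1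
    -- `I (k * J f_i) = - E(J F, J f_i)`
    have h2 : ∀ᶠ i in l, I (k * C.J lam (f i)) = -I (C.Γ (C.J lam F) (C.J lam (f i))) := by
      filter_upwards [hW] with i hi
      have := hL.2.2 _ (hC.J_mem hl (hC.memLp _ hi))
      change I (C.Γ (C.J lam F) (C.J lam (f i))) = -I (k * C.J lam (f i)) at this
      rw [this, neg_neg]
    have h3 : I (k * C.J lam F) = -I (C.Γ (C.J lam F) (C.J lam F)) := by
      have := hL.2.2 _ hJW
      change I (C.Γ (C.J lam F) (C.J lam F)) = -I (k * C.J lam F) at this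
      rw [this, neg_neg]
    have h4 : Tendsto (fun i => I (C.Γ (C.J lam F) (C.J lam (f i)))) l
        (𝓝 (I (C.Γ (C.J lam F) (C.J lam F)))) := by
      rw [h3] at h1
      have := (h1.congr' h2).neg
      simpa using this
    set A := I (C.Γ (C.J lam F) (C.J lam F)) with hA
    have hA0 : 0 ≤ A := hC.E_nonneg hJW
    have hK0 : 0 ≤ K := by
      obtain ⟨i, hi1, hi2⟩ := (hK.and_eventually hW).exists
      exact (hC.E_nonneg hi2).trans hi1
    by_contra hcon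
    push Not at hcon
    -- choose the threshold between `√K √A` and `A`
    have hlt : Real.sqrt A * Real.sqrt K < A := by
      have h5 : Real.sqrt K < Real.sqrt A := Real.sqrt_lt_sqrt hK0 hcon
      have h6 : 0 < Real.sqrt A := lt_of_le_of_lt (Real.sqrt_nonneg _) h5
      calc Real.sqrt A * Real.sqrt K < Real.sqrt A * Real.sqrt A :=
            mul_lt_mul_of_pos_left h5 h6
        _ = A := Real.mul_self_sqrt hA0
    have hev := h4.eventually (lt_mem_nhds hlt)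
    obtain ⟨i, hi1, hi2, hi3⟩ := (hK.and_eventually (hW.and hev)).exists
    have h7 := hC.E_abs_le hJW (hC.J_mem hl (hC.memLp _ hi2))
    have h8 := (hC.J_est hl hi2).2.1
    have h9 : I (C.Γ (C.J lam F) (C.J lam (f i))) ≤ Real.sqrt A * Real.sqrt K :=
      (le_abs_self _).trans (h7.trans (mul_le_mul_of_nonneg_left
        (Real.sqrt_le_sqrt (h8.trans hi1)) (Real.sqrt_nonneg _)))
    linarith
  refine hC.mem_of_bounded (u := fun n : ℕ => C.J ((n : ℝ) + 1)⁻¹ F) (fun n => ?_) key hF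
    (hC.J_tendsto_L2 hF)
  exact hC.J_mem (by positivity) hF

theorem wconv_mem [l.NeBot] (hf : WConv l f F) (hE : BddE C l f) : F ∈ C.W := by
  obtain ⟨K, hK⟩ := hE
  exact (hC.wconv_mem_le hf (by filter_upwards [hK] with i hi using hi.1)
    (Eventually.frequently (by filter_upwards [hK] with i hi using hi.2))).1

theorem wconv_E_le [l.NeBot] (hf : WConv l f F) (hE : BddE C l f) {a : ℝ}
    (ha : ∃ᶠ i in l, I (C.Γ (f i) (f i)) ≤ a) : I (C.Γ F F) ≤ a :=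
  (hC.wconv_mem_le hf hE.mem ha).2

/-- weak convergence in `W` -/
theorem wconv_E [l.NeBot] (hf : WConv l f F) (hE : BddE C l f) (hG : G ∈ C.W) :
    Tendsto (fun i => I (C.Γ (f i) G)) l (𝓝 (I (C.Γ F G))) := by
  have hFW := hC.wconv_mem hf hE
  obtain ⟨K, hK0, hK⟩ := hE.nonneg_bound
  set L : ℝ := Real.sqrt K + Real.sqrt (I (C.Γ F F)) + 1 with hL
  have hL0 : 0 < L := by positivity
  rw [Metric.tendsto_nhds]
  intro ε hε
  -- approximate `G` by `J G`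
  obtain ⟨n, hn⟩ := ((hC.J_tendsto_W hG).eventually
    (gt_mem_nhds (show (0 : ℝ) < (ε / (2 * L)) ^ 2 by positivity))).exists
  set lam : ℝ := ((n : ℝ) + 1)⁻¹ with hlam
  have hl : 0 < lam := by positivity
  have hG2 := hC.memLp _ hG
  have hJ := hC.J_mem hl hG2
  have hLap := hC.J_isLap hl hG2
  set k : M →ₘ[m] ℝ := lam⁻¹ • (C.J lam G - G) with hk
  have hd := hC.sub_mem hG hJ
  have hs : Real.sqrt (I (C.Γ (G - C.J lam G) (G - C.J lam G))) < ε / (2 * L) := by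
    rw [Real.sqrt_lt' (by positivity)]
    refine lt_of_le_of_lt ?_ hn
    rw [← hC.nrm2_sub_comm hG hJ]
    exact hC.E_le_nrm2 _
  have h1 : Tendsto (fun i => I (C.Γ (f i) (C.J lam G))) l (𝓝 (I (C.Γ F (C.J lam G)))) := by
    have e : ∀ u ∈ C.W, I (C.Γ u (C.J lam G)) = -I (k * u) := by
      intro u hu
      have := hLap.2.2 u hu
      change I (C.Γ (C.J lam G) u) = -I (k * u) at this
      rw [hC.symm u hu _ hJ, this]
    rw [e F hFW]
    refine ((hf.lim k hLap.2.1).neg).congr' ?_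
    filter_upwards [hK] with i hi
    rw [e _ hi.1]
  filter_upwards [hK, Metric.tendsto_nhds.1 h1 (ε / 2) (by positivity)] with i a1 a2
  rw [Real.dist_eq] at a2 ⊢
  have e : I (C.Γ (f i) G) - I (C.Γ F G)
      = I (C.Γ (f i) (G - C.J lam G)) - I (C.Γ F (G - C.J lam G))
        + (I (C.Γ (f i) (C.J lam G)) - I (C.Γ F (C.J lam G))) := by
    rw [hC.Γ_sub_right a1.1 hG hJ, hC.Γ_sub_right hFW hG hJ,
      I_sub (hC.Γ_mem1 a1.1 hG) (hC.Γ_mem1 a1.1 hJ), I_sub (hC.Γ_mem1 hFW hG) (hC.Γ_mem1 hFW hJ)]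
    ring
  rw [e]
  have b1 : |I (C.Γ (f i) (G - C.J lam G))| ≤ Real.sqrt K * (ε / (2 * L)) :=
    (hC.E_abs_le a1.1 hd).trans (mul_le_mul (Real.sqrt_le_sqrt a1.2) hs.le
      (Real.sqrt_nonneg _) (Real.sqrt_nonneg _))
  have b2 : |I (C.Γ F (G - C.J lam G))| ≤ Real.sqrt (I (C.Γ F F)) * (ε / (2 * L)) :=
    (hC.E_abs_le hFW hd).trans (mul_le_mul_of_nonneg_left hs.le (Real.sqrt_nonneg _))
  have b3 : Real.sqrt K * (ε / (2 * L)) + Real.sqrt (I (C.Γ F F)) * (ε / (2 * L)) < ε / 2 := by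
    have : ε / 2 = L * (ε / (2 * L)) := by field_simp
    rw [this, ← add_mul]
    refine mul_lt_mul_of_pos_right ?_ (by positivity)
    rw [hL]; linarith
  calc |I (C.Γ (f i) (G - C.J lam G)) - I (C.Γ F (G - C.J lam G))
        + (I (C.Γ (f i) (C.J lam G)) - I (C.Γ F (C.J lam G)))|
      ≤ |I (C.Γ (f i) (G - C.J lam G))| + |I (C.Γ F (G - C.J lam G))|
        + |I (C.Γ (f i) (C.J lam G)) - I (C.Γ F (C.J lam G))| :=
        (abs_add_le _ _).trans (add_le_add (abs_sub _ _) le_rfl)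
    _ < ε := by linarith

/-- the square root of `Γ(f,f)` -/
theorem exists_sqrtΓ (hF : F ∈ C.W) : ∃ T : M →ₘ[m] ℝ, 0 ≤ T ∧ MemLp T 2 m ∧ T ^ 2 = C.Γ F F ∧
    I (T ^ 2) = I (C.Γ F F) ∧ (∀ᵐ x ∂m, T x = Real.sqrt (C.Γ F F x)) := by
  have hsc : Continuous Real.sqrt := Real.continuous_sqrt
  set T := AEEqFun.comp Real.sqrt hsc (C.Γ F F) with hT
  have hTx : ∀ᵐ x ∂m, T x = Real.sqrt (C.Γ F F x) := by
    filter_upwards [AEEqFun.coeFn_comp Real.sqrt hsc (C.Γ F F)] with x h2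
    rw [hT, h2, Function.comp_apply]
  have e : T ^ 2 = C.Γ F F := by
    rw [eq_iff_ae]
    filter_upwards [sq_ae T, hTx, hC.Γ_nonneg_ae hF] with x h1 h2 h3
    rw [h1, h2, Real.sq_sqrt h3]
  refine ⟨T, ?_, memLp_two_of_sq (by rw [e]; exact hC.mem1 F hF), e, by rw [e], hTx⟩
  rw [nonneg_iff_ae]
  filter_upwards [hTx] with x hx
  rw [hx]; exact Real.sqrt_nonneg _

/-- weighted Cauchy–Schwarz -/
theorem abs_I_mul_Γ_le {b : M →ₘ[m] ℝ} (hb : MemLp b ∞ m) (hF : F ∈ C.W) (hG : G ∈ C.W) :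
    |I (b * C.Γ F G)| ≤ Real.sqrt (I (b ^ 2 * C.Γ F F)) * Real.sqrt (I (C.Γ G G)) := by
  obtain ⟨T, hT0, hT, hT2, hT3, hTx⟩ := hC.exists_sqrtΓ hF
  obtain ⟨S, hS0, hS, hS2, hS3, hSx⟩ := hC.exists_sqrtΓ hG
  have hbT : MemLp (b * T) 2 m := mem_mul_top hb hT
  have habs : Continuous (fun t : ℝ => |t|) := continuous_abs
  set bT := AEEqFun.comp _ habs (b * T) with hbTdef
  have hbTx : ∀ᵐ x ∂m, bT x = |b x * T x| := by
    filter_upwards [AEEqFun.coeFn_comp _ habs (b * T), mul_ae b T] with x h1 h2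
    rw [hbTdef, h1, Function.comp_apply, h2]
  have hbT2 : MemLp bT 2 m := mem_of_le hbT (by
    filter_upwards [hbTx, mul_ae b T] with x h1 h2
    rw [h1, h2, abs_abs])
  have h1 := I_abs_le hbT2 hS
  have e1 : I (bT ^ 2) = I (b ^ 2 * C.Γ F F) := by
    congr 1
    rw [← hT2, eq_iff_ae]
    filter_upwards [sq_ae bT, hbTx, mul_ae (b ^ 2) (T ^ 2), sq_ae b, sq_ae T] with x a1 a2 a3 a4 a5
    rw [a1, a2, a3, a4, a5, sq_abs, mul_pow]
  rw [e1, hS3] at h1
  refine le_trans ?_ ((le_abs_self _).trans h1)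
  have hΓ := hC.Γ_mem1 hF hG
  have hbΓ : MemLp (b * C.Γ F G) 1 m := mem_mul_top hb hΓ
  unfold I
  refine (abs_integral_le_integral_abs).trans ?_
  refine integral_mono_ae (int_of_mem hbΓ).abs (int_of_mem (mem_mul_22 hbT2 hS)) ?_
  filter_upwards [mul_ae b (C.Γ F G), hC.Γ_abs_ae hF hG, mul_ae bT S, hbTx, hTx, hSx]
    with x a1 a2 a3 a4 a5 a6
  show |(b * C.Γ F G : M →ₘ[m] ℝ) x| ≤ (bT * S : M →ₘ[m] ℝ) x
  rw [a1, a3, a4, abs_mul, abs_mul, a5, a6, abs_of_nonneg (Real.sqrt_nonneg _), mul_assoc]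
  exact mul_le_mul_of_nonneg_left a2 (abs_nonneg _)

/-- Riesz representation in `W` of `g ↦ I (b Γ(g,G))` -/
theorem exists_repr {b : M →ₘ[m] ℝ} (hb : MemLp b ∞ m) (hG : G ∈ C.W) :
    ∃ z ∈ C.W, ∀ u ∈ C.W, I (z * u) + I (C.Γ z u) = I (b * C.Γ u G) := by
  obtain ⟨K, hK⟩ := mem_top_iff.1 hb
  letI cI : InnerProductSpace.Core ℝ hC.HS := hC.core one_pos
  letI nI : NormedAddCommGroup hC.HS := cI.toNormedAddCommGroup
  letI iI : InnerProductSpace ℝ hC.HS := InnerProductSpace.ofCore cI.toCore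
  have hnorm : ∀ x : hC.HS, ‖x‖ ^ 2 = C.nrm2 x.val := by
    intro x
    rw [← real_inner_self_eq_norm_sq]
    show I (x.val * x.val) + 1 * I (C.Γ x.val x.val) = _
    rw [Calc.nrm2, sq, one_mul]
  haveI : CompleteSpace hC.HS := by
    refine Metric.complete_of_cauchySeq_tendsto fun u hu => ?_
    obtain ⟨f, hf, hlim⟩ := hC.complete (fun n => (u n).val) (fun n => (u n).mem) (by
      intro ε hε
      obtain ⟨N, hN⟩ := Metric.cauchySeq_iff.1 hu (Real.sqrt ε) (Real.sqrt_pos.2 hε)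
      refine ⟨N, fun n hn k hk => ?_⟩
      have h1 := hN n hn k hk
      rw [dist_eq_norm] at h1
      have h2 : ‖u n - u k‖ ^ 2 < ε := by
        have := pow_lt_pow_left₀ h1 (norm_nonneg _) two_ne_zero
        rwa [Real.sq_sqrt hε.le] at this
      rw [hnorm] at h2
      exact h2)
    refine ⟨HS.mk f hf, ?_⟩
    rw [tendsto_iff_dist_tendsto_zero]
    have h1 : Tendsto (fun n => Real.sqrt (C.nrm2 ((u n).val - f))) atTop (𝓝 0) := by
      have := (Real.continuous_sqrt.tendsto 0).comp hlim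
      simpa [Function.comp_def] using this
    refine h1.congr fun n => ?_
    rw [dist_eq_norm, ← Real.sqrt_sq (norm_nonneg (u n - HS.mk f hf)), hnorm]
    rfl
  let L : hC.HS →ₗ[ℝ] ℝ :=
    { toFun := fun x => I (b * C.Γ x.val G)
      map_add' := by
        intro x y
        rw [HS.val_add, hC.add_left _ x.mem _ y.mem _ hG, mul_add,
          I_add (mem_mul_top hb (hC.Γ_mem1 x.mem hG)) (mem_mul_top hb (hC.Γ_mem1 y.mem hG))]
      map_smul' := by
        intro c x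
        rw [HS.val_smul, hC.smul_left _ _ x.mem _ hG, mul_smul_comm, I_smul, RingHom.id_apply,
          smul_eq_mul] }
  have hL : ∀ x, ‖L x‖ ≤ (|K| * Real.sqrt (I (C.Γ G G))) * ‖x‖ := by
    intro x
    rw [Real.norm_eq_abs]
    show |I (b * C.Γ x.val G)| ≤ _
    refine (hC.abs_I_mul_Γ_le hb x.mem hG).trans ?_
    have h1 : I (b ^ 2 * C.Γ x.val x.val) ≤ |K| ^ 2 * I (C.Γ x.val x.val) := by
      rw [← I_smul]
      have hb2 : MemLp (b ^ 2 : M →ₘ[m] ℝ) ∞ m := by rw [sq]; exact mem_mul_top hb hb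
      refine I_mono (mem_mul_top hb2 (hC.mem1 _ x.mem)) (mem_smul _ (hC.mem1 _ x.mem)) ?_
      rw [le_iff_ae]
      filter_upwards [mul_ae (b ^ 2) (C.Γ x.val x.val), sq_ae b, smul_ae (C.Γ x.val x.val) (|K| ^ 2),
        hK, hC.Γ_nonneg_ae x.mem] with y a1 a2 a3 a4 a5
      rw [a1, a2, a3]
      refine mul_le_mul_of_nonneg_right ?_ a5
      rw [← sq_abs (b y)]
      exact pow_le_pow_left₀ (abs_nonneg _) (a4.trans (le_abs_self K)) 2
    have h2 : Real.sqrt (I (b ^ 2 * C.Γ x.val x.val)) ≤ |K| * ‖x‖ := by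
      refine (Real.sqrt_le_sqrt h1).trans ?_
      rw [Real.sqrt_mul (sq_nonneg _), Real.sqrt_sq (abs_nonneg _)]
      refine mul_le_mul_of_nonneg_left ?_ (abs_nonneg _)
      rw [← Real.sqrt_sq (norm_nonneg x), hnorm]
      exact Real.sqrt_le_sqrt (hC.E_le_nrm2 _)
    calc Real.sqrt (I (b ^ 2 * C.Γ x.val x.val)) * Real.sqrt (I (C.Γ G G))
        ≤ (|K| * ‖x‖) * Real.sqrt (I (C.Γ G G)) :=
          mul_le_mul_of_nonneg_right h2 (Real.sqrt_nonneg _)
      _ = (|K| * Real.sqrt (I (C.Γ G G))) * ‖x‖ := by ring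
  set T : hC.HS →L[ℝ] ℝ := L.mkContinuous _ hL with hT
  refine ⟨((InnerProductSpace.toDual ℝ hC.HS).symm T).val, HS.mem _, fun u hu => ?_⟩
  have h1 : ⟪(InnerProductSpace.toDual ℝ hC.HS).symm T, HS.mk u hu⟫_ℝ = T (HS.mk u hu) :=
    InnerProductSpace.toDual_symm_apply
  have h2 : ⟪(InnerProductSpace.toDual ℝ hC.HS).symm T, HS.mk u hu⟫_ℝ
      = I (((InnerProductSpace.toDual ℝ hC.HS).symm T).val * u)
        + 1 * I (C.Γ ((InnerProductSpace.toDual ℝ hC.HS).symm T).val u) := rfl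
  rw [h2, one_mul] at h1
  rw [h1]
  rfl

/-- weighted weak convergence of the gradients -/
theorem wconv_Γ [l.NeBot] (hf : WConv l f F) (hE : BddE C l f) {b : M →ₘ[m] ℝ} (hb : MemLp b ∞ m)
    (hG : G ∈ C.W) : Tendsto (fun i => I (b * C.Γ (f i) G)) l (𝓝 (I (b * C.Γ F G))) := by
  obtain ⟨z, hz, hzu⟩ := hC.exists_repr hb hG
  have hFW := hC.wconv_mem hf hE
  have h1 := (hf.lim z (hC.memLp z hz)).add (hC.wconv_E hf hE hz)
  rw [hC.symm F hFW z hz, hzu F hFW] at h1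
  refine h1.congr' ?_
  filter_upwards [hE.mem] with i hi
  rw [hC.symm _ hi z hz, hzu _ hi]

/-- if `|∇G|` is bounded, `Γ(f i, G) → Γ(F, G)` weakly in `L²` -/
theorem wconv_Γ_lip [l.NeBot] (hf : WConv l f F) (hE : BddE C l f) (hG : G ∈ C.W)
    (hG' : MemLp (C.Γ G G) ∞ m) : WConv l (fun i => C.Γ (f i) G) (C.Γ F G) := by
  have hFW := hC.wconv_mem hf hE
  obtain ⟨L, hL⟩ := mem_top_iff.1 hG'
  have hm : ∀ u ∈ C.W, MemLp (C.Γ u G) 2 m ∧ I (C.Γ u G ^ 2) ≤ L * I (C.Γ u u) := by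
    intro u hu
    have h1 : MemLp (C.Γ u G) 2 m := by
      rw [hC.symm u hu G hG]; exact hC.Γ_mem2 hG hG' hu
    refine ⟨h1, ?_⟩
    rw [← I_smul]
    refine I_mono (mem_sq h1) (mem_smul _ (hC.mem1 u hu)) ?_
    rw [le_iff_ae]
    filter_upwards [sq_ae (C.Γ u G), smul_ae (C.Γ u u) L, hC.Γ_cs_ae hu hG, hL,
      hC.Γ_nonneg_ae hu] with x a1 a2 a3 a4 a5
    rw [a1, a2]
    refine a3.trans ?_
    rw [mul_comm]
    exact mul_le_mul_of_nonneg_right ((le_abs_self _).trans a4) a5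
  have hb : BddL2 l (fun i => C.Γ (f i) G) := by
    obtain ⟨K, hK0, hK⟩ := hE.nonneg_bound
    refine ⟨|L| * K, ?_⟩
    filter_upwards [hK] with i hi
    refine ⟨(hm _ hi.1).1, (hm _ hi.1).2.trans ?_⟩
    exact (mul_le_mul_of_nonneg_right (le_abs_self L) (hC.E_nonneg hi.1)).trans
      (mul_le_mul_of_nonneg_left hi.2 (abs_nonneg _))
  refine WConv.of_dense hb (hm F hFW).1 (D := {b | MemLp b ∞ m}) ?_ ?_
  · intro H hH ε hε
    obtain ⟨T, K, -, hT, hTK, -, -, hT2⟩ := exists_bdd_approx hH hε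
    exact ⟨T, mem_top_iff.2 ⟨K, hTK⟩, hT, hT2⟩
  · intro b hb hb2
    exact hC.wconv_Γ hf hE hb hG

/-- weighted lower semicontinuity of the energy -/
theorem lsc_Γ [l.NeBot] (hf : WConv l f F) (hE : BddE C l f) {b : M →ₘ[m] ℝ} (hb : MemLp b ∞ m)
    (hb0 : 0 ≤ b) {ε : ℝ} (hε : 0 < ε) :
    ∀ᶠ i in l, I (b * C.Γ F F) - ε < I (b * C.Γ (f i) (f i)) := by
  have hFW := hC.wconv_mem hf hE
  have h1 := hC.wconv_Γ hf hE hb hFW
  filter_upwards [h1.eventually (lt_mem_nhds (show I (b * C.Γ F F) - ε / 2 < I (b * C.Γ F F) by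
    linarith)), hE.mem] with i a1 a2
  have e : C.Γ (f i - F) (f i - F) = C.Γ (f i) (f i) - (2 : ℝ) • C.Γ (f i) F + C.Γ F F := by
    rw [hC.Γ_sub_left a2 hFW (hC.sub_mem a2 hFW), hC.Γ_sub_right a2 a2 hFW,
      hC.Γ_sub_right hFW a2 hFW, hC.symm F hFW _ a2, two_smul]
    abel
  have h2 : 0 ≤ I (b * C.Γ (f i - F) (f i - F)) :=
    I_nonneg (mul_nonneg hb0 (hC.nonneg _ (hC.sub_mem a2 hFW)))
  have m1 := mem_mul_top hb (hC.mem1 _ a2)
  have m2 := mem_mul_top hb (hC.Γ_mem1 a2 hFW)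
  have m3 := mem_mul_top hb (hC.mem1 _ hFW)
  rw [e, mul_add, mul_sub, mul_smul_comm, I_add (mem_sub m1 (mem_smul _ m2)) m3,
    I_sub m1 (mem_smul _ m2), I_smul] at h2
  linarith

theorem I_Γ_le [l.NeBot] (hf : WConv l f F) (hE : BddE C l f) {b : M →ₘ[m] ℝ} (hb : MemLp b ∞ m)
    (hb0 : 0 ≤ b) {a : ℝ} (ha : ∃ᶠ i in l, I (b * C.Γ (f i) (f i)) ≤ a) :
    I (b * C.Γ F F) ≤ a := by
  refine le_of_forall_pos_lt_add fun ε hε => ?_
  obtain ⟨i, h1, h2⟩ := (ha.and_eventually (hC.lsc_Γ hf hE hb hb0 hε)).exists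
  linarith

/-- pointwise gradient bounds pass to weak limits -/
theorem Γ_le_of_le [l.NeBot] (hf : WConv l f F) (hE : BddE C l f) {L : ℝ}
    (h : ∀ᶠ i in l, ∀ᵐ x ∂m, C.Γ (f i) (f i) x ≤ L) : ∀ᵐ x ∂m, C.Γ F F x ≤ L := by
  have hFW := hC.wconv_mem hf hE
  rcases lt_or_ge L 0 with hL | hL
  · obtain ⟨i, hi, hiW⟩ := (h.and hE.mem).exists
    filter_upwards [hi, hC.Γ_nonneg_ae hiW] with x a1 a2
    linarith
  · refine le_const_of_forall (hC.mem1 F hFW) hL fun ψ h0 h2 h1 ht => ?_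
    rw [mul_comm]
    refine hC.I_Γ_le hf hE ht h0 (Eventually.frequently ?_)
    filter_upwards [h, hE.mem] with i hi hiW
    rw [← I_smul]
    refine I_mono (mem_mul_top ht (hC.mem1 _ hiW)) (mem_smul _ h1) ?_
    rw [le_iff_ae]
    filter_upwards [mul_ae ψ (C.Γ (f i) (f i)), smul_ae ψ L, hi, nonneg_iff_ae.1 h0]
      with x a1 a2 a3 a4
    rw [a1, a2, mul_comm]
    exact mul_le_mul_of_nonneg_right a3 a4

/-- the Laplacian is closed under weak limits -/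
theorem wconv_isLap [l.NeBot] (hf : WConv l f F) (hg : WConv l g G)
    (h : ∀ᶠ i in l, C.IsLap (f i) (g i)) : C.IsLap F G := by
  have hE : BddE C l f := by
    obtain ⟨K, hK0, hK⟩ := hf.bddL2.nonneg_bound
    obtain ⟨L, hL0, hL⟩ := hg.bddL2.nonneg_bound
    refine ⟨Real.sqrt L * Real.sqrt K, ?_⟩
    filter_upwards [hK, hL, h] with i a1 a2 a3
    refine ⟨a3.1, ?_⟩
    have e := a3.2.2 _ a3.1
    change I (C.Γ (f i) (f i)) = -I (g i * f i) at e
    rw [e]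
    refine (neg_le_abs _).trans ((I_abs_le a2.1 a1.1).trans ?_)
    exact mul_le_mul (Real.sqrt_le_sqrt a2.2) (Real.sqrt_le_sqrt a1.2) (Real.sqrt_nonneg _)
      (Real.sqrt_nonneg _)
  have hFW := hC.wconv_mem hf hE
  refine ⟨hFW, hg.mem, fun u hu => ?_⟩
  have h1 := hC.wconv_E hf hE hu
  have h2 := (hg.lim' (hC.memLp u hu)).neg
  refine tendsto_nhds_unique h1 (h2.congr' ?_)
  filter_upwards [h] with i hi
  exact (hi.2.2 u hu).symm

/-- one-sided weak bounds of the Laplacian pass to weak limits: test with one `u` -/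
theorem wconv_lap_le [l.NeBot] (hf : WConv l f F) (hE : BddE C l f) {u : M →ₘ[m] ℝ} (hu : u ∈ C.W)
    {a : ℝ} (h : ∀ᶠ i in l, -I (C.Γ (f i) u) ≤ a) : -I (C.Γ F u) ≤ a :=
  le_of_tendsto (hC.wconv_E hf hE hu).neg h

theorem wconv_le_lap [l.NeBot] (hf : WConv l f F) (hE : BddE C l f) {u : M →ₘ[m] ℝ} (hu : u ∈ C.W)
    {a : ℝ} (h : ∀ᶠ i in l, a ≤ -I (C.Γ (f i) u)) : a ≤ -I (C.Γ F u) :=
  ge_of_tendsto (hC.wconv_E hf hE hu).neg h

/-! ### strong convergence in `W` -/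

theorem sconvW_sconv (hf : SConvW C l f F) : SConv l f F where
  mem := by filter_upwards [hf.mem] with i hi using hC.memLp _ hi
  lim := by
    refine squeeze_zero' (Eventually.of_forall fun i => I_sq_nonneg _) ?_ hf.lim
    filter_upwards [hf.mem] with i hi using hC.I_sq_le_nrm2 hi

theorem sconvW_E (hf : SConvW C l f F) :
    Tendsto (fun i => I (C.Γ (f i - F) (f i - F))) l (𝓝 0) := by
  refine squeeze_zero' ?_ (Eventually.of_forall fun i => hC.E_le_nrm2 _) hf.lim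
  filter_upwards [hf.mem] with i hi using hC.E_nonneg hi

theorem sconvW_mem' (hf : SConvW C l f F) (hF : F ∈ C.W) : ∀ᶠ i in l, f i ∈ C.W := by
  filter_upwards [hf.mem] with i hi
  have := hC.add_mem _ hi F hF
  rwa [sub_add_cancel] at this

theorem sconvW_bddE (hf : SConvW C l f F) (hF : F ∈ C.W) : BddE C l f := by
  refine ⟨2 * 1 + 2 * I (C.Γ F F), ?_⟩
  filter_upwards [hf.mem, hC.sconvW_mem' hf hF,
    (hC.sconvW_E hf).eventually (ge_mem_nhds zero_lt_one)] with i h1 h2 h3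
  refine ⟨h2, ?_⟩
  have := hC.E_add_le h1 hF
  rw [sub_add_cancel] at this
  linarith

theorem sconvW_wconv (hf : SConvW C l f F) (hF : F ∈ C.W) : WConv l f F :=
  (hC.sconvW_sconv hf).wconv (hC.memLp F hF)

/-- `Γ(f i, g i) → Γ(F, G)` in `L¹` (weighted with a bounded class) for strong × weak limits -/
theorem tendsto_I_Γ [l.NeBot] (hf : SConvW C l f F) (hF : F ∈ C.W) (hg : WConv l g G)
    (hgE : BddE C l g) {b : M →ₘ[m] ℝ} (hb : MemLp b ∞ m) :
    Tendsto (fun i => I (b * C.Γ (f i) (g i))) l (𝓝 (I (b * C.Γ F G))) := by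
  have hGW := hC.wconv_mem hg hgE
  obtain ⟨K, hK⟩ := mem_top_iff.1 hb
  obtain ⟨L, hL0, hL⟩ := hgE.nonneg_bound
  have h1 : Tendsto (fun i => I (b * C.Γ (g i) F)) l (𝓝 (I (b * C.Γ G F))) :=
    hC.wconv_Γ hg hgE hb hF
  have h2 : Tendsto (fun i => I (b * C.Γ (f i - F) (g i))) l (𝓝 0) := by
    rw [tendsto_zero_iff_abs_tendsto_zero]
    have h0 : Tendsto (fun i => Real.sqrt (|K| ^ 2 * I (C.Γ (f i - F) (f i - F))) * Real.sqrt L) l
        (𝓝 0) := by
      have := (Real.continuous_sqrt.tendsto _).comp ((hC.sconvW_E hf).const_mul (|K| ^ 2))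
      have h3 := this.mul_const (Real.sqrt L)
      simpa [Function.comp_def] using h3
    refine squeeze_zero' (Eventually.of_forall fun i => abs_nonneg _) ?_ h0
    filter_upwards [hf.mem, hL] with i a1 a2
    refine (hC.abs_I_mul_Γ_le hb a1 a2.1).trans ?_
    refine mul_le_mul (Real.sqrt_le_sqrt ?_) (Real.sqrt_le_sqrt a2.2) (Real.sqrt_nonneg _)
      (Real.sqrt_nonneg _)
    rw [← I_smul]
    have hb2 : MemLp (b ^ 2 : M →ₘ[m] ℝ) ∞ m := by rw [sq]; exact mem_mul_top hb hb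
    refine I_mono (mem_mul_top hb2 (hC.mem1 _ a1)) (mem_smul _ (hC.mem1 _ a1)) ?_
    rw [le_iff_ae]
    filter_upwards [mul_ae (b ^ 2) (C.Γ (f i - F) (f i - F)), sq_ae b,
      smul_ae (C.Γ (f i - F) (f i - F)) (|K| ^ 2), hK, hC.Γ_nonneg_ae a1] with y b1 b2 b3 b4 b5
    rw [b1, b2, b3]
    refine mul_le_mul_of_nonneg_right ?_ b5
    rw [← sq_abs (b y)]
    exact pow_le_pow_left₀ (abs_nonneg _) (b4.trans (le_abs_self K)) 2
  have h3 := h1.add h2
  rw [add_zero, hC.symm G hGW F hF] at h3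
  refine h3.congr' ?_
  filter_upwards [hf.mem, hC.sconvW_mem' hf hF, hL] with i a1 a2 a3
  rw [hC.Γ_sub_left a2 hF a3.1, mul_sub, I_sub (mem_mul_top hb (hC.Γ_mem1 a2 a3.1))
    (mem_mul_top hb (hC.Γ_mem1 hF a3.1)), hC.symm _ a3.1 F hF]
  ring

/-- with weights `h i` that are bounded and converge strongly -/
theorem tendsto_I_mul_Γ [l.NeBot] (hh : SConv l h H) {K : ℝ} (hK : ∀ᶠ i in l, ∀ᵐ x ∂m, |h i x| ≤ K)
    (hf : SConvW C l f F) (hF : F ∈ C.W) (hg : WConv l g G) (hgE : BddE C l g) :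
    Tendsto (fun i => I (h i * C.Γ (f i) (g i))) l (𝓝 (I (H * C.Γ F G))) := by
  have hGW := hC.wconv_mem hg hgE
  have hHK := hh.abs_le_const hK
  have hHt : MemLp H ∞ m := mem_top_iff.2 ⟨K, hHK⟩
  obtain ⟨L, hL0, hL⟩ := hgE.nonneg_bound
  -- main term
  have h1 := hC.tendsto_I_Γ hf hF hg hgE hHt
  -- `(h i - H) Γ(F, g i)`
  obtain ⟨T, hT0, hT, hT2, hT3, hTx⟩ := hC.exists_sqrtΓ hF
  have h2 : Tendsto (fun i => I ((h i - H) * C.Γ F (g i))) l (𝓝 0) := by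
    rw [tendsto_zero_iff_abs_tendsto_zero]
    have h4 : SConv l (fun i => h i * T) (H * T) := hh.mul hK (SConv.const T) hT
    have h0 : Tendsto (fun i => Real.sqrt (I ((h i * T - H * T) ^ 2)) * Real.sqrt L) l (𝓝 0) := by
      have h3 := h4.sqrt_lim.mul_const (Real.sqrt L)
      simpa using h3
    refine squeeze_zero' (Eventually.of_forall fun i => abs_nonneg _) ?_ h0
    filter_upwards [hK, hL] with i a1 a2
    have ht : MemLp (h i - H : M →ₘ[m] ℝ) ∞ m := mem_sub (mem_top_iff.2 ⟨K, a1⟩) hHt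
    refine (hC.abs_I_mul_Γ_le ht hF a2.1).trans ?_
    refine mul_le_mul (le_of_eq ?_) (Real.sqrt_le_sqrt a2.2) (Real.sqrt_nonneg _)
      (Real.sqrt_nonneg _)
    congr 2
    rw [← hT2]; ring
  -- `(h i - H) Γ(f i - F, g i)`
  have h3 : Tendsto (fun i => I ((h i - H) * C.Γ (f i - F) (g i))) l (𝓝 0) := by
    rw [tendsto_zero_iff_abs_tendsto_zero]
    have h0 : Tendsto (fun i => Real.sqrt ((2 * |K|) ^ 2 * I (C.Γ (f i - F) (f i - F)))
        * Real.sqrt L) l (𝓝 0) := by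
      have := (Real.continuous_sqrt.tendsto _).comp ((hC.sconvW_E hf).const_mul ((2 * |K|) ^ 2))
      have h3 := this.mul_const (Real.sqrt L)
      simpa [Function.comp_def] using h3
    refine squeeze_zero' (Eventually.of_forall fun i => abs_nonneg _) ?_ h0
    filter_upwards [hf.mem, hL, hK] with i a1 a2 a3
    have ht : MemLp (h i - H : M →ₘ[m] ℝ) ∞ m := mem_sub (mem_top_iff.2 ⟨K, a3⟩) hHt
    refine (hC.abs_I_mul_Γ_le ht a1 a2.1).trans ?_
    refine mul_le_mul (Real.sqrt_le_sqrt ?_) (Real.sqrt_le_sqrt a2.2) (Real.sqrt_nonneg _)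
      (Real.sqrt_nonneg _)
    rw [← I_smul]
    have hb2 : MemLp ((h i - H) ^ 2 : M →ₘ[m] ℝ) ∞ m := by rw [sq]; exact mem_mul_top ht ht
    refine I_mono (mem_mul_top hb2 (hC.mem1 _ a1)) (mem_smul _ (hC.mem1 _ a1)) ?_
    rw [le_iff_ae]
    filter_upwards [mul_ae ((h i - H) ^ 2) (C.Γ (f i - F) (f i - F)), sq_ae (h i - H),
      smul_ae (C.Γ (f i - F) (f i - F)) ((2 * |K|) ^ 2), a3, hHK, sub_ae (h i) H,
      hC.Γ_nonneg_ae a1] with y b1 b2 b3 b4 b5 b6 b7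
    rw [b1, b2, b3, b6]
    refine mul_le_mul_of_nonneg_right ?_ b7
    rw [← sq_abs (h i y - H y)]
    refine pow_le_pow_left₀ (abs_nonneg _) ?_ 2
    have := abs_sub (h i y) (H y)
    have := le_abs_self K
    linarith
  have h5 := (h1.add h2).add h3
  simp only [add_zero] at h5
  refine h5.congr' ?_
  filter_upwards [hf.mem, hC.sconvW_mem' hf hF, hL, hK] with i a1 a2 a3 a4
  have hht : MemLp (h i) ∞ m := mem_top_iff.2 ⟨K, a4⟩
  have hhH : MemLp (h i - H : M →ₘ[m] ℝ) ∞ m := mem_sub hht hHt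
  have m1 := hC.Γ_mem1 a2 a3.1
  have m2 := hC.Γ_mem1 hF a3.1
  have m3 := hC.Γ_mem1 a1 a3.1
  have e : h i * C.Γ (f i) (g i) = H * C.Γ (f i) (g i) + (h i - H) * C.Γ F (g i)
      + (h i - H) * C.Γ (f i - F) (g i) := by
    rw [hC.Γ_sub_left a2 hF a3.1]; ring
  rw [e, I_add (mem_add (mem_mul_top hHt m1) (mem_mul_top hhH m2)) (mem_mul_top hhH m3),
    I_add (mem_mul_top hHt m1) (mem_mul_top hhH m2)]

/-- weak convergence in `W` and convergence of the energies give strong convergence in `W` -/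
theorem sconvW_of [l.NeBot] (hs : SConv l f F) (hf : WConv l f F) (hE : BddE C l f)
    (h : ∀ ε > 0, ∀ᶠ i in l, I (C.Γ (f i) (f i)) ≤ I (C.Γ F F) + ε) : SConvW C l f F := by
  have hFW := hC.wconv_mem hf hE
  refine ⟨?_, ?_⟩
  · filter_upwards [hE.mem] with i hi using hC.sub_mem hi hFW
  have h1 := hC.wconv_E hf hE hFW
  have h2 : Tendsto (fun i => I (C.Γ (f i - F) (f i - F))) l (𝓝 0) := by
    rw [Metric.tendsto_nhds]
    intro ε hε
    filter_upwards [h (ε / 2) (by linarith), hE.mem,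
      h1.eventually (lt_mem_nhds (show I (C.Γ F F) - ε / 4 < I (C.Γ F F) by linarith))]
      with i a1 a2 a3
    rw [Real.dist_eq, sub_zero, abs_of_nonneg (hC.E_nonneg (hC.sub_mem a2 hFW)),
      hC.E_sub a2 hFW]
    linarith
  have h3 := hs.lim.add h2
  rw [add_zero] at h3
  exact h3

end IsDir

section ultra

variable {U : Ultrafilter ι}

theorem IsDir.wlim_mem (hC : IsDir C) (hf : BddL2 (U : Filter ι) f) (hE : BddE C (U : Filter ι) f) :
    wlim U f ∈ C.W := hC.wconv_mem hf.wconv hE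

theorem IsDir.wlim_isLap (hC : IsDir C) (hf : BddL2 (U : Filter ι) f) (hg : BddL2 (U : Filter ι) g)
    (h : ∀ᶠ i in (U : Filter ι), C.IsLap (f i) (g i)) : C.IsLap (wlim U f) (wlim U g) :=
  hC.wconv_isLap hf.wconv hg.wconv h

end ultra

end Vale.Agent.P233
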